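import Crest.Agent.R165.P.Main

/-! # R165 block P, Flow: norm calculus for the iteration (site norms, total norm of the background) (helper58) -/

set_option autoImplicit false
set_option linter.unusedSectionVars false
set_option linter.unusedVariables false
noncomputable section
open Classical

namespace Crest.Agent.R165

variable {X : Type} {A : Type} [CommRing A] [Algebra ℝ A] [Algebra ℚ A]

namespace Geo
variable {G : Geo X} {Bd Bd' : Finset X → A → ℝ → Prop} {e : A →ₐ[ℝ] ℝ} {l : ℕ} {a α α' : ℝ}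

theorem self_mem_ball (G : Geo X) (x : X) (R : ℕ) : x ∈ G.ball x R :=
  (G.mem_ball _ _ _).2 (by rw [G.d_self]; exact Nat.zero_le _)

theorem SN.mono {q : X → A} (h : G.SN Bd l q α) (hα : α ≤ α') : G.SN Bd l q α' :=
  h.imp fun _ h => ⟨h.1, fun y => (h.2 y).trans hα⟩

theorem PN.mono {K : Finset X → A} (h : G.PN Bd l a K α) (hα : α ≤ α') : G.PN Bd l a K α' :=
  h.imp fun _ h => ⟨h.1, fun y 𝒮 h' => (h.2 y 𝒮 h').trans hα⟩

theorem SN.zero (hB : BdAx Bd e) (hα : 0 ≤ α) : G.SN Bd l (fun _ => 0) α :=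
  ⟨fun _ => 0, fun x => ⟨le_rfl, hB.zero _⟩, fun y => by simpa using hα⟩

theorem PN.zero (hB : BdAx Bd e) (hα : 0 ≤ α) : G.PN Bd l a (fun _ => 0) α :=
  ⟨fun _ => 0, fun x => ⟨le_rfl, hB.zero _⟩, fun y => by simpa using fun _ _ => hα⟩

theorem SN.add (hB : BdAx Bd e) {q q' : X → A} (h : G.SN Bd l q α) (h' : G.SN Bd l q' α') :
    G.SN Bd l (fun x => q x + q' x) (α + α') := by
  obtain ⟨b, hb, hs⟩ := h
  obtain ⟨b', hb', hs'⟩ := h'
  refine ⟨fun x => b x + b' x, fun x => ⟨add_nonneg (hb x).1 (hb' x).1, hB.add (hb x).2 (hb' x).2⟩, fun y => ?_⟩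
  rw [Finset.sum_add_distrib]
  exact add_le_add (hs y) (hs' y)

theorem SN.nonneg {q : X → A} (h : G.SN Bd l q α) (y : X) : 0 ≤ α := by
  obtain ⟨b, hb, hs⟩ := h
  exact (Finset.sum_nonneg fun x _ => (hb x).1).trans (hs y)

theorem PN.nonneg {K : Finset X → A} (h : G.PN Bd l a K α) (y : X) : 0 ≤ α := by
  obtain ⟨b, hb, hs⟩ := h
  simpa using hs y ∅ (by simp)

theorem SN.pt (hB : BdAx Bd e) {q : X → A} (h : G.SN Bd l q α) (x : X) : Bd {x} (q x) α := by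
  obtain ⟨b, hb, hs⟩ := h
  exact hB.mono (hb x).2 subset_rfl
    ((Finset.single_le_sum (fun x _ => (hb x).1) (G.self_mem_ball x l)).trans (hs x))

/-- weighted cover of a ball -/
theorem sum_cover {b κ : X → ℝ} (hb : ∀ x, 0 ≤ b x) (hs : ∀ y, ∑ x ∈ G.ball y l, b x ≤ α) (B C : Finset X)
    (kb : X → ℝ) (hC : ∀ z ∈ B, ∃ c ∈ C, G.d c z ≤ l) (hk : ∀ c ∈ C, ∀ x ∈ G.ball c l, κ x ≤ kb c)
    (hκ : ∀ x, 0 ≤ κ x) : ∑ x ∈ B, κ x * b x ≤ (∑ c ∈ C, kb c) * α := by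
  have k0 : ∀ c ∈ C, 0 ≤ kb c := fun c hc => (hκ c).trans (hk c hc c (G.self_mem_ball c l))
  calc _ ≤ ∑ x ∈ B, ∑ c ∈ C, if x ∈ G.ball c l then kb c * b x else 0 := by
        refine Finset.sum_le_sum fun x hx => ?_
        obtain ⟨c, hc, h⟩ := hC x hx
        have hm := (G.mem_ball _ _ _).2 h
        refine le_trans ?_ (Finset.single_le_sum (f := fun c => if x ∈ G.ball c l then kb c * b x else 0)
          (fun c hc => by split_ifs; exacts [mul_nonneg (k0 c hc) (hb x), le_rfl]) hc)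
        simp only [if_pos hm]
        exact mul_le_mul_of_nonneg_right (hk c hc x hm) (hb x)
    _ ≤ ∑ c ∈ C, kb c * α := by
        rw [Finset.sum_comm]
        refine Finset.sum_le_sum fun c hc => ?_
        rw [← Finset.sum_filter, ← Finset.mul_sum]
        refine mul_le_mul_of_nonneg_left (le_trans (Finset.sum_le_sum_of_subset_of_nonneg
          (fun x hx => (Finset.mem_filter.1 hx).2) fun x _ _ => hb x) (hs c)) (k0 c hc)
    _ = _ := (Finset.sum_mul _ _ _).symm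

theorem SN.scale {L : ℕ} (hl : 1 ≤ l) {q : X → A} (h : G.SN Bd l q α) :
    G.SN Bd (L * l) q (((2 * L + 3 : ℕ) : ℝ) ^ 2 * α) := by
  have h0 := h.nonneg
  obtain ⟨b, hb, hs⟩ := h
  refine ⟨b, hb, fun y => ?_⟩
  obtain ⟨C, hC, h⟩ := G.cover y (L * l) l hl
  rw [Nat.mul_div_cancel _ hl] at hC
  have := sum_cover (κ := fun _ => 1) (fun x => (hb x).1) hs _ C (fun _ => 1) h (fun _ _ _ _ => le_rfl)
    fun _ => zero_le_one
  simp only [one_mul, Finset.sum_const, nsmul_eq_mul, mul_one] at this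
  exact this.trans (mul_le_mul_of_nonneg_right (by exact_mod_cast hC) (h0 y))

/-- a site-wise linear bound -/
theorem SN.map {q q' : X → A} {β : ℝ} (hβ : 0 ≤ β) (h : G.SN Bd l q α)
    (hq : ∀ x c, Bd {x} (q x) c → Bd' {x} (q' x) (β * c)) : G.SN Bd' l q' (β * α) := by
  obtain ⟨b, hb, hs⟩ := h
  refine ⟨fun x => β * b x, fun x => ⟨mul_nonneg hβ (hb x).1, hq x _ (hb x).2⟩, fun y => ?_⟩
  rw [← Finset.mul_sum]
  exact mul_le_mul_of_nonneg_left (hs y) hβ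

/-- the dumped part of `q` contracts by `θ` -/
theorem SN.dump {Lc : Finset X → Subalgebra ℝ A} {S : Sp X A} {Λ θ : ℝ} {κ : X → ℝ}
    (hA : S.Ana G Lc Bd Bd' Λ θ κ) {q : X → A} (hq : ∀ x, q x ∈ Lc {x}) (h : G.SN Bd S.l q α) :
    G.SN Bd' S.l' (fun x => S.mu (q x) - S.loc x (S.mu (q x))) (θ * α) := by
  have h0 := h.nonneg
  obtain ⟨b, hb, hs⟩ := h
  refine ⟨fun x => κ x * b x, fun x => ⟨mul_nonneg (hA.κ_nonneg x) (hb x).1,
    hA.h2 (G.small_single _ x) (Finset.mem_singleton_self x) (hq x) (hb x).2⟩, fun y => ?_⟩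
  obtain ⟨C, kb, h1, h2, h3⟩ := hA.κ_sum y
  refine (sum_cover (fun x => (hb x).1) hs _ C kb h1 (fun c hc x hx => h2 c hc x ?_) hA.κ_nonneg).trans
    (mul_le_mul_of_nonneg_right h3 (h0 y))
  rw [G.mem_ball] at hx ⊢
  omega

/-- if any two different members inside `Z` multiply to zero, the grouping is linear -/
theorem grp_lin {B : Type} [CommRing B] (G : Geo X) (r : ℕ) {r' : ℕ} (P K : Finset X → B) {Z : Finset X}
    (hZ : G.Conn r' Z) (h : ∀ i i' : Finset X ⊕ Finset X, Sum.elim id id i ⊆ Z → Sum.elim id id i' ⊆ Z →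
      Sum.elim P K i * Sum.elim P K i' = 0) : G.grp r r' P K Z = P Z + K Z := by
  rw [G.grp_split r P K hZ, grp2, if_pos hZ, Finset.sum_eq_zero, add_zero]
  intro F hF
  rw [Finset.mem_filter] at hF
  obtain ⟨i, hi, i', hi', hne⟩ := Finset.one_lt_card.1 hF.2
  rw [← Finset.mul_prod_erase _ _ hi, ← Finset.mul_prod_erase _ _ (Finset.mem_erase.2 ⟨hne.symm, hi'⟩), ← mul_assoc,
    h i i' (cfg_sub hF.1 hi) (cfg_sub hF.1 hi'), zero_mul]

theorem PN.add_sgl (hB : BdAx Bd e) (ha : 0 ≤ a) {K : Finset X → A} {q : X → A} (h : G.PN Bd l a K α)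
    (h' : G.SN Bd l q α') : G.PN Bd l a (fun Y => K Y + sgl q Y) (α + a * α') := by
  obtain ⟨b, hb, hs⟩ := h
  obtain ⟨b', hb', hs'⟩ := h'
  have h1 := hB.sgl fun x => (hb' x).2
  exact ⟨fun Y => b Y + sgl b' Y, fun Y => ⟨add_nonneg (hb Y).1 (hB.nonneg (h1 Y)), hB.add (hb Y).2 (h1 Y)⟩,
    NB.add hs (NB.sgl (fun x => (hb' x).1) hs' ha)⟩

/-- members attached to far apart centres `c i`, divisible by elements `t i` of square zero: the grouping is linear -/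
theorem grp_lin' {B ι : Type} [CommRing B] (G : Geo X) (r : ℕ) {r' ρ : ℕ} (c : ι → X) (t : ι → B) (I : Set ι)
    (ht : ∀ i ∈ I, t i * t i = 0) (hc : ∀ i ∈ I, ∀ i' ∈ I, i ≠ i' → 2 * ρ + r' < G.d (c i) (c i'))
    {P K : Finset X → B} (h : ∀ u : Finset X ⊕ Finset X, Sum.elim P K u ≠ 0 → (Sum.elim id id u : Finset X).Nonempty ∧
      ∃ i ∈ I, Sum.elim id id u ⊆ G.ball (c i) ρ ∧ t i ∣ Sum.elim P K u)
    {Z : Finset X} (hZ : G.Conn r' Z) : G.grp r r' P K Z = P Z + K Z := by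
  rw [G.grp_split r P K hZ, grp2, if_pos hZ, Finset.sum_eq_zero, add_zero]
  intro F hF
  rw [Finset.mem_filter] at hF
  by_contra hne0
  have h0 : ∀ u ∈ F, Sum.elim P K u ≠ 0 := fun u hu h0 => hne0 (Finset.prod_eq_zero hu h0)
  obtain ⟨u, hu, u', hu', hne⟩ := Finset.one_lt_card.1 hF.2
  obtain ⟨⟨y, hy⟩, i, hi, h1, h2⟩ := h u (h0 u hu)
  obtain ⟨⟨y', hy'⟩, i', hi', h1', h2'⟩ := h u' (h0 u' hu')
  have hs : G.Sep r' (G.ball (c i) ρ) (Z.filter fun z => z ∉ G.ball (c i) ρ) := fun a ha b hb => by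
    rw [Finset.mem_filter, ← (mem_cfg.1 hF.1).2, Finset.mem_biUnion] at hb
    obtain ⟨⟨v, hv, hb⟩, hb'⟩ := hb
    obtain ⟨-, i'', hi'', h3, -⟩ := h v (h0 v hv)
    have h4 := hc i hi i'' hi'' fun e => hb' (e ▸ h3 hb)
    have h5 := (G.mem_ball _ _ _).1 (h3 hb)
    have h6 := (G.mem_ball _ _ _).1 ha
    have h7 := G.d_tri (c i) a (c i'')
    have h8 := G.d_tri a b (c i'')
    rw [G.d_comm b] at h8
    omega
  have hsub : Z ⊆ G.ball (c i) ρ := hZ.subset hs (fun z hz => by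
    by_cases h : z ∈ G.ball (c i) ρ <;> simp [h, hz]) (cfg_sub hF.1 hu hy) (h1 hy)
  have e : i = i' := by_contra fun e => by
    have h4 := hc i hi i' hi' e
    have h5 := (G.mem_ball _ _ _).1 (hsub (cfg_sub hF.1 hu' hy'))
    have h6 := (G.mem_ball _ _ _).1 (h1' hy')
    have h7 := G.d_tri (c i) y' (c i')
    rw [G.d_comm y'] at h7
    omega
  subst e
  obtain ⟨w, hw⟩ := h2
  obtain ⟨w', hw'⟩ := h2'
  refine hne0 ?_
  rw [← Finset.mul_prod_erase _ _ hu, ← Finset.mul_prod_erase _ _ (Finset.mem_erase.2 ⟨hne.symm, hu'⟩), ← mul_assoc,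
    hw, hw', mul_mul_mul_comm, ht i hi, zero_mul, zero_mul]

/-- a non-zero grouping has a non-zero member -/
theorem grp_ne_zero {B : Type} [CommRing B] (G : Geo X) {r r' : ℕ} {P K : Finset X → B} {Z : Finset X}
    (h : G.grp r r' P K Z ≠ 0) : ∃ Y ⊆ Z, P Y ≠ 0 ∨ K Y ≠ 0 := by
  rw [grp_eq] at h
  split_ifs at h with hZ
  · obtain ⟨F, hF, h⟩ := Finset.exists_ne_zero_of_sum_ne_zero h
    obtain ⟨z, hz⟩ := hZ.1
    rw [← (mem_cfg.1 hF).2, Finset.mem_biUnion] at hz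
    obtain ⟨u, hu, -⟩ := hz
    have h1 : Sum.elim P K u ≠ 0 := fun h0 => h (Finset.prod_eq_zero hu h0)
    have h2 := cfg_sub hF hu
    cases u with
    | inl Y => exact ⟨Y, h2, Or.inl h1⟩
    | inr Y => exact ⟨Y, h2, Or.inr h1⟩
  · exact (h rfl).elim

/-- total norm of a background -/
def TN (G : Geo X) (Bd : Finset X → A → ℝ → Prop) (l : ℕ) (a : ℝ) (M : Finset X → A) (ε : ℝ) : Prop :=
  ∃ b : Finset X → ℝ, (∀ Z, 0 ≤ b Z ∧ Bd Z (a ^ G.cov l Z • M Z) (b Z)) ∧ (∀ Z, ¬ G.Conn l Z → b Z = 0) ∧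
    ∀ Λ, G.Xi l b Λ ≤ 1 + ε

theorem TN.mono {M : Finset X → A} (h : G.TN Bd l a M α) (hα : α ≤ α') : G.TN Bd l a M α' :=
  h.imp fun _ h => ⟨h.1, h.2.1, fun y => (h.2.2 y).trans (by linarith)⟩

theorem sum_le_xi (G : Geo X) (l : ℕ) {b : Finset X → ℝ} (hb : ∀ Z, 0 ≤ b Z) (h0 : b ∅ = 0)
    (𝒮 : Finset (Finset X)) : 1 + ∑ Z ∈ 𝒮, b Z ≤ G.Xi l b (𝒮.biUnion id) := by
  have h1 : ∑ Z ∈ 𝒮, b Z = ∑ 𝒳 ∈ (𝒮.erase ∅).image (fun Z => ({Z} : Finset (Finset X))), ∏ Z ∈ 𝒳, b Z := by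
    rw [Finset.sum_image fun _ _ _ _ h => Finset.singleton_injective h, Finset.sum_erase _ (by simpa using h0)]
    simp
  rw [h1, ← Finset.prod_empty (f := b), ← Finset.sum_insert (f := fun 𝒳 => ∏ Z ∈ 𝒳, b Z) (by simp)]
  refine Finset.sum_le_sum_of_subset_of_nonneg (fun 𝒳 h => mem_fams.2 ?_) fun _ _ _ => Finset.prod_nonneg fun Z _ => hb Z
  rcases Finset.mem_insert.1 h with rfl | h
  · simp
  · obtain ⟨Z, hZ, rfl⟩ := Finset.mem_image.1 h
    rw [Finset.mem_erase] at hZ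
    simp only [Finset.mem_singleton, forall_eq]
    exact ⟨Finset.subset_biUnion_of_mem id hZ.2, Finset.nonempty_iff_ne_empty.2 hZ.1, fun h => (h rfl).elim⟩

theorem TN.pn (hB : BdAx Bd e) (ha : 0 < a) {M : Finset X → A} (h : G.TN Bd l a M α) : G.PN Bd l a M α := by
  obtain ⟨b, hb, hc, hs⟩ := h
  refine ⟨fun Z => (a ^ G.cov l Z)⁻¹ * b Z, fun Z => ⟨mul_nonneg (by positivity) (hb Z).1, ?_⟩, fun y 𝒮 _ => ?_⟩
  · have := hB.smul (a ^ G.cov l Z)⁻¹ (hb Z).2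
    rwa [smul_smul, inv_mul_cancel₀ (by positivity), one_smul, abs_of_pos (by positivity)] at this
  · have := (G.sum_le_xi l (fun Z => (hb Z).1) (hc _ (G.not_conn_empty l)) 𝒮).trans (hs _)
    rw [Finset.sum_congr rfl fun Z _ => mul_inv_cancel_left₀ (by positivity) _]
    linarith

theorem xi_le_exp (G : Geo X) (l : ℕ) {b : Finset X → ℝ} (hb : ∀ Z, 0 ≤ b Z) (Λ : Finset X) :
    G.Xi l b Λ ≤ Real.exp (∑ Z ∈ Λ.powerset, b Z) := by
  refine le_trans ?_ (sm_prod Λ.powerset hb hb).1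
  rw [Finset.prod_one_add]
  exact Finset.sum_le_sum_of_subset_of_nonneg (Finset.filter_subset _ _) fun _ _ _ => Finset.prod_nonneg fun Z _ => hb Z

/-- a background of total mass `β` -/
theorem TN.of_mass (hB : BdAx Bd e) (ha : 0 < a) {M : Finset X → A} {b : Finset X → ℝ} {β : ℝ}
    (hb : ∀ Z, 0 ≤ b Z ∧ Bd Z (M Z) (b Z)) (hc : ∀ Z, ¬ G.Conn l Z → M Z = 0)
    (hs : ∀ 𝒮 : Finset (Finset X), ∑ Z ∈ 𝒮, a ^ G.cov l Z * b Z ≤ β) : G.TN Bd l a M (Real.exp β - 1) := by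
  have h0 : ∀ Z, 0 ≤ if G.Conn l Z then a ^ G.cov l Z * b Z else 0 := fun Z => by
    split_ifs; exacts [mul_nonneg (by positivity) (hb Z).1, le_rfl]
  refine ⟨fun Z => if G.Conn l Z then a ^ G.cov l Z * b Z else 0, fun Z => ⟨h0 Z, ?_⟩, fun Z h => if_neg h, fun Λ => ?_⟩
  · beta_reduce
    split_ifs with h
    · have := hB.smul (a ^ G.cov l Z) (hb Z).2
      rwa [abs_of_pos (by positivity)] at this
    · rw [hc Z h, smul_zero]; exact hB.zero Z
  · refine (G.xi_le_exp l h0 Λ).trans ?_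
    rw [add_sub_cancel, ← Finset.sum_filter]
    exact Real.exp_le_exp.2 (hs _)

/-- all polymers pass through one point -/
theorem TN.of_pn (hB : BdAx Bd e) (ha : 0 < a) {M : Finset X → A} (h : G.PN Bd l a M α) (y : X)
    (hy : ∀ Z, M Z ≠ 0 → y ∈ Z) (hc : ∀ Z, ¬ G.Conn l Z → M Z = 0) : G.TN Bd l a M (Real.exp α - 1) := by
  obtain ⟨b, hb, hs⟩ := h
  refine TN.of_mass hB ha (b := fun Z => if y ∈ Z then b Z else 0) (fun Z => ?_) hc fun 𝒮 => ?_
  · split_ifs with h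
    · exact hb Z
    · rw [by_contra fun h0 => h (hy Z h0)]; exact ⟨le_rfl, hB.zero Z⟩
  · simp only [mul_ite, mul_zero]
    rw [← Finset.sum_filter]
    exact hs y _ fun Z hZ => ⟨y, (Finset.mem_filter.1 hZ).2, by rw [G.d_self]; exact Nat.zero_le _⟩

theorem cov_anti (G : Geo X) {l l' : ℕ} (h : l ≤ l') (Z : Finset X) : G.cov l' Z ≤ G.cov l Z := by
  obtain ⟨C, hC, h'⟩ := G.cov_spec l Z
  exact hC ▸ G.cov_le fun z hz => (h' z hz).imp fun c hc => ⟨hc.1, hc.2.trans h⟩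

/-- **no loss**: the total norm of the background only grows by the moved part, of total mass `β` -/
theorem TN.next (hB : BdAx Bd e) (hB' : BdAx Bd' e) {S : Sp X A} (hl : S.l ≤ S.l') (ha : 1 ≤ a) {s : St X A}
    (hmu : ∀ {Z F c}, Bd Z F c → Bd' Z (S.mu F) c) (h : G.TN Bd S.l a s.M α) {r : X → ℝ} {β : ℝ}
    (hr : ∀ x, Bd {x} (s.qm x) (r x)) (hβ : ∀ B : Finset X, ∑ x ∈ B, r x ≤ β) (hβ' : β ≤ 1 / 3) :
    G.TN Bd' S.l' a (S.next G e s).M ((1 + α) * Real.exp (6 * a * β) - 1) := by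
  obtain ⟨b, hb, hc, hs⟩ := h
  have r0 := fun x => hB.nonneg (hr x)
  have h1 : ∀ x, Bd {x} (exA e (s.qm x) - 1) (6 * r x) := fun x =>
    (hB.exA_le (hr x) (le_trans (by simpa using hβ {x}) hβ')).1
  have h2 : ∀ Z, Bd Z (a ^ G.cov S.l Z • sgl (fun x => exA e (s.qm x) - 1) Z) (sgl (fun x => 6 * a * r x) Z) := fun Z => by
    rcases sgl_cases Z with ⟨x, rfl⟩ | hZ
    · have := hB.smul a (h1 x)
      rw [abs_of_pos (by positivity)] at this
      rw [sgl_single, sgl_single, G.cov_single, pow_one]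
      convert this using 1; ring
    · rw [hZ, hZ, smul_zero]; exact hB.zero Z
  have p0 := fun Z => hB.nonneg (h2 Z)
  have h3 : ∀ Z, Bd Z (a ^ G.cov S.l' Z • G.grp S.l S.l' (sgl fun x => exA e (s.qm x) - 1) s.M Z)
      (G.grp S.l S.l' (sgl fun x => 6 * a * r x) b Z) := fun Z => by
    rw [grp_eq, grp_eq]
    split_ifs with hZ
    · rw [Finset.smul_sum]
      refine hB.sum _ fun F hF => ?_
      have h4 : Bd Z (∏ i ∈ F, a ^ G.cov S.l (Sum.elim id id i) • Sum.elim (sgl fun x => exA e (s.qm x) - 1) s.M i)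
          (∏ i ∈ F, Sum.elim (sgl fun x => 6 * a * r x) b i) := hB.prod _ fun i hi => by
        have := cfg_sub hF hi
        cases i with
        | inl Y => exact hB.mono (h2 Y) this le_rfl
        | inr Y => exact hB.mono (hb Y).2 this le_rfl
      have h5 : G.cov S.l' Z ≤ ∑ i ∈ F, G.cov S.l (Sum.elim id id i) :=
        (G.cov_anti hl Z).trans ((mem_cfg.1 hF).2 ▸ G.cov_biUnion_le _ _ _)
      rw [Finset.prod_smul, Finset.prod_pow_eq_pow_sum] at h4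
      have h6 := hB.smul (a ^ G.cov S.l' Z * (a ^ ∑ i ∈ F, G.cov S.l (Sum.elim id id i))⁻¹) h4
      rw [smul_smul, inv_mul_cancel_right₀ (by positivity), abs_of_pos (by positivity)] at h6
      refine hB.mono h6 subset_rfl (mul_le_of_le_one_left (hB.nonneg h4) ?_)
      rw [← div_eq_mul_inv, div_le_one (by positivity)]
      exact pow_le_pow_right₀ ha h5
    · rw [smul_zero]; exact hB.zero Z
  refine ⟨G.grp S.l S.l' (sgl fun x => 6 * a * r x) b, fun Z => ⟨hB.nonneg (h3 Z), ?_⟩,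
    fun Z hZ => G.grp_of_not_conn _ _ _ hZ, fun Λ => ?_⟩
  · have := hmu (h3 Z)
    rwa [map_smul] at this
  · rw [← xi_grp G hl _ _ (fun Z hZ => sgl_of_not_conn G _ hZ) (fun Z hZ => hc Z fun h => hZ (h.mono hl)),
      prod_one_add_sgl, add_sub_cancel, mul_comm]
    have q0 : ∀ x, 0 ≤ 6 * a * r x := fun x => mul_nonneg (by positivity) (r0 x)
    have h7 : 0 ≤ G.Xi S.l b Λ := Finset.sum_nonneg fun _ _ => Finset.prod_nonneg fun Z _ => (hb Z).1
    refine mul_le_mul (hs Λ) ((sm_prod Λ q0 q0).1.trans (Real.exp_le_exp.2 ?_))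
      (Finset.prod_nonneg fun x _ => by linarith [q0 x]) (h7.trans (hs Λ))
    rw [← Finset.mul_sum]
    exact mul_le_mul_of_nonneg_left (hβ Λ) (by positivity)

end Geo

theorem exA_of_sq {e : A →ₐ[ℝ] ℝ} {F : A} (h : F * F = 0) : exA e F - 1 = F := by
  have h0 : e F = 0 := by
    have := congrArg e h
    rw [map_mul, map_zero] at this
    exact mul_self_eq_zero.1 this
  rw [exA, h0, Real.exp_zero, one_smul, map_zero, sub_zero,
    IsNilpotent.exp_eq_sum (k := 2) (by rw [sq, h])]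
  simp [Finset.sum_range_succ]

end Crest.Agent.R165
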