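import Crest.Agent.R165.Poly

/-! # R165 block P, Alg: exponentials, gauge calculus, `sgl` (owner helper58; statements frozen, add lemmas freely) -/

set_option autoImplicit false
set_option linter.unusedSectionVars false
set_option linter.unusedVariables false
noncomputable section
open Classical

namespace Crest.Agent.R165

variable {X : Type} {A : Type} [CommRing A] [Algebra ℝ A] [Algebra ℚ A]

theorem alg_aug (e : A →ₐ[ℝ] ℝ) (a : A) : e (a - algebraMap ℝ A (e a)) = 0 := by simp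

theorem exA_add (e : A →ₐ[ℝ] ℝ) (hn : ∀ F, e F = 0 → IsNilpotent F) (a b : A) :
    exA e (a + b) = exA e a * exA e b := by
  rw [exA, exA, exA, smul_mul_smul_comm, ← Real.exp_add, ← IsNilpotent.exp_add_of_commute (Commute.all _ _)
    (hn _ (alg_aug e a)) (hn _ (alg_aug e b)), map_add, map_add, add_sub_add_comm]

theorem exA_zero (e : A →ₐ[ℝ] ℝ) : exA e (0 : A) = 1 := by
  simp [exA]

theorem exA_sum (e : A →ₐ[ℝ] ℝ) (hn : ∀ F, e F = 0 → IsNilpotent F) {ι : Type} (s : Finset ι) (f : ι → A) :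
    exA e (∑ i ∈ s, f i) = ∏ i ∈ s, exA e (f i) := by
  induction s using Finset.induction_on with
  | empty => simpa using exA_zero e
  | insert i s hi ih => rw [Finset.sum_insert hi, Finset.prod_insert hi, exA_add e hn, ih]

theorem exA_mem (e : A →ₐ[ℝ] ℝ) {T : Subalgebra ℝ A} {F : A} (h : F ∈ T) : exA e F ∈ T := by
  refine T.smul_mem (T.sum_mem fun i _ => ?_) _
  rw [inv_natCast_smul_eq ℚ ℝ]
  exact T.smul_mem (T.pow_mem (T.sub_mem h (T.algebraMap_mem _)) _) _

theorem map_exA {A' : Type} [CommRing A'] [Algebra ℝ A'] [Algebra ℚ A'] {e : A →ₐ[ℝ] ℝ} {e' : A' →ₐ[ℝ] ℝ}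
    (hn : ∀ F, e F = 0 → IsNilpotent F) (Φ : A →ₐ[ℝ] A') (he : ∀ F, e' (Φ F) = e F) (F : A) :
    exA e' (Φ F) = Φ (exA e F) := by
  rw [exA, exA, map_smul, (hn _ (alg_aug e F)).map_exp Φ, map_sub, AlgHom.commutes, he]

theorem sgl_single {B : Type} [CommRing B] (p : X → B) (x : X) : sgl p {x} = p x := by
  simp [sgl]

theorem sgl_eq_zero {B : Type} [CommRing B] (p : X → B) {Z : Finset X} (h : ∀ x, Z = {x} → p x = 0) :
    sgl p Z = 0 := by
  exact Finset.sum_eq_zero fun x _ => ite_eq_right_iff.2 (h x)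

/-- case analysis for `sgl` -/
theorem sgl_cases (Z : Finset X) : (∃ x, Z = {x}) ∨ ∀ (B : Type) [CommRing B] (p : X → B), sgl p Z = 0 := by
  exact (_root_.em _).imp_right fun h B _ p => sgl_eq_zero p fun x hx => (h ⟨x, hx⟩).elim

theorem prod_one_add_sgl {B : Type} [CommRing B] (p : X → B) (Λ : Finset X) :
    ∏ Y ∈ Λ.powerset, (1 + sgl p Y) = ∏ x ∈ Λ, (1 + p x) := by
  rw [← Finset.prod_subset (s₁ := Λ.image fun x => {x}), Finset.prod_image fun x _ y _ h => Finset.singleton_injective h]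
  · simp only [sgl_single]
  · exact Finset.image_subset_iff.2 fun x hx => by simpa using hx
  · intro Y hY h
    rw [sgl_eq_zero p fun x hx => (h (Finset.mem_image.2 ⟨x, by simpa [hx] using hY, hx.symm⟩)).elim, add_zero]

namespace BdAx
variable {Bd : Finset X → A → ℝ → Prop} {e : A →ₐ[ℝ] ℝ} (h : BdAx Bd e) {Z : Finset X}
include h

theorem nonneg {F : A} {c : ℝ} (hF : Bd Z F c) : 0 ≤ c := by
  exact (abs_nonneg _).trans (h.aug hF)

theorem neg {F : A} {c : ℝ} (hF : Bd Z F c) : Bd Z (-F) c := by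
  simpa using h.smul (-1) hF

theorem sum {ι : Type} (s : Finset ι) {F : ι → A} {c : ι → ℝ} (hF : ∀ i ∈ s, Bd Z (F i) (c i)) :
    Bd Z (∑ i ∈ s, F i) (∑ i ∈ s, c i) := by
  induction s using Finset.induction_on with
  | empty => simpa using h.zero Z
  | insert i s hi ih =>
    rw [Finset.sum_insert hi, Finset.sum_insert hi]
    exact h.add (hF i (Finset.mem_insert_self _ _)) (ih fun j hj => hF j (Finset.mem_insert_of_mem hj))

theorem prod {ι : Type} (s : Finset ι) {F : ι → A} {c : ι → ℝ} (hF : ∀ i ∈ s, Bd Z (F i) (c i)) :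
    Bd Z (∏ i ∈ s, F i) (∏ i ∈ s, c i) := by
  induction s using Finset.induction_on with
  | empty => simpa using h.one Z
  | insert i s hi ih =>
    rw [Finset.prod_insert hi, Finset.prod_insert hi]
    exact h.mul (hF i (Finset.mem_insert_self _ _)) (ih fun j hj => hF j (Finset.mem_insert_of_mem hj))

theorem prod_sub {ι : Type} (s : Finset ι) {F F' : ι → A} {c c' : ι → ℝ} (hF : ∀ i ∈ s, Bd Z (F i) (c i))
    (hF' : ∀ i ∈ s, Bd Z (F' i) (c' i)) :
    Bd Z (∏ i ∈ s, (F i + F' i) - ∏ i ∈ s, F i) (∏ i ∈ s, (c i + c' i) - ∏ i ∈ s, c i) := by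
  induction s using Finset.induction_on with
  | empty => simpa using h.zero Z
  | insert i s hi ih =>
    have m := Finset.mem_insert_self i s
    have h1 := fun j hj => hF j (Finset.mem_insert_of_mem hj)
    simp only [Finset.prod_insert hi]
    convert h.add (h.mul (h.add (hF i m) (hF' i m)) (ih h1 fun j hj => hF' j (Finset.mem_insert_of_mem hj)))
      (h.mul (hF' i m) (h.prod s h1)) using 1 <;> ring

theorem sgl {q : X → A} {b : X → ℝ} (hq : ∀ x, Bd {x} (q x) (b x)) (Z : Finset X) : Bd Z (sgl q Z) (sgl b Z) := by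
  rcases sgl_cases Z with ⟨x, rfl⟩ | h0
  · rw [sgl_single, sgl_single]
    exact hq x
  · rw [h0, h0]
    exact h.zero Z

/-- `F = t + N`, `exA F - 1 - F = eᵗ (exp N - 1 - N) + (eᵗ - 1) N + (eᵗ - 1 - t)`. -/
theorem exA2 {F : A} {c : ℝ} (hF : Bd Z F c) : Bd Z (exA e F - 1 - F) (Real.exp (3 * c) - 1 - 3 * c) := by
  have c0 := h.nonneg hF
  obtain ⟨k, hk⟩ := h.nil _ (alg_aug e F)
  have ht := h.aug hF
  have hN : Bd Z (F - algebraMap ℝ A (e F)) (2 * c) := by
    rw [Algebra.algebraMap_eq_smul_one, sub_eq_add_neg]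
    exact h.mono (h.add hF (h.neg (h.smul _ (h.one Z)))) le_rfl (by linarith)
  have e1 : F = e F • (1 : A) + (F - algebraMap ℝ A (e F)) := by simp [Algebra.algebraMap_eq_smul_one]
  rw [exA, IsNilpotent.exp_eq_sum (pow_eq_zero_of_le (Nat.le_add_right k 2) hk)]
  generalize F - algebraMap ℝ A (e F) = N at *
  generalize e F = t at *
  have h1 := h.sum (Finset.range k) fun i _ => h.smul (((i + 1 + 1).factorial : ℝ)⁻¹)
    (h.prod (Finset.range (i + 1 + 1)) fun _ _ => hN)
  have h2 := Real.sum_le_exp_of_nonneg (x := 2 * c) (by positivity) (k + 1 + 1)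
  simp only [Finset.prod_const, Finset.card_range, abs_inv, Nat.abs_cast, inv_mul_eq_div] at h1
  rw [Finset.sum_range_succ', Finset.sum_range_succ'] at h2 ⊢
  simp only [inv_natCast_smul_eq ℚ ℝ]
  simp only [zero_add, Nat.factorial_one, Nat.factorial_zero, Nat.cast_one, pow_zero, pow_one, div_one, inv_one,
    one_smul] at h2 ⊢
  obtain ⟨t1, t2⟩ := abs_le.1 ht
  have a1 := Real.exp_le_exp.2 t2
  have a2 := Real.add_one_le_exp t
  have a3 := Real.add_one_le_exp c
  have a4 : |Real.exp t - 1| ≤ Real.exp c - 1 := abs_le.2 ⟨by linarith, by linarith⟩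
  have a5 : |Real.exp t - 1 - t| ≤ Real.exp c - 1 - c := by
    have m : ∀ s, 0 ≤ s → s ≤ c → Real.exp s - s ≤ Real.exp c - c := fun s h0 h1 => by
      have := Real.add_one_le_exp (c - s)
      rw [Real.exp_sub, le_div_iff₀ (Real.exp_pos s)] at this
      nlinarith [Real.one_le_exp h0]
    rw [abs_of_nonneg (by linarith)]
    rcases le_total 0 t with h0 | h0
    · linarith [m t h0 t2]
    · have := Real.self_le_sinh_iff.2 (neg_nonneg.2 h0)
      rw [Real.sinh_eq, neg_neg] at this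
      linarith [m (-t) (by linarith) (by linarith)]
  have h3 := h.add (h.add (h.smul (Real.exp t) h1) (h.smul (Real.exp t - 1) hN)) (h.smul (Real.exp t - 1 - t) (h.one Z))
  convert h.mono h3 le_rfl (c' := Real.exp (3 * c) - 1 - 3 * c) ?_ using 1
  · rw [e1]
    module
  · have b1 := mul_le_mul (show |Real.exp t| ≤ Real.exp c by rwa [Real.abs_exp]) (le_sub_iff_add_le.2 (le_sub_iff_add_le.2 h2))
      (h.nonneg h1) (Real.exp_pos c).le
    have b2 := mul_le_mul_of_nonneg_right a4 (show 0 ≤ 2 * c by positivity)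
    rw [show 3 * c = c + 2 * c by ring, Real.exp_add]
    linarith

end BdAx

theorem BdAx.exA {Bd : Finset X → A → ℝ → Prop} {e : A →ₐ[ℝ] ℝ} (h : BdAx Bd e) {Z : Finset X} {F : A} {c : ℝ}
    (hF : Bd Z F c) : Bd Z (exA e F - 1) (Real.exp (3 * c) - 1) := by
  have := h.add (h.exA2 hF) hF
  rw [sub_add_cancel] at this
  exact h.mono this le_rfl (by linarith [h.nonneg hF])

theorem BdAx.exA_le {Bd : Finset X → A → ℝ → Prop} {e : A →ₐ[ℝ] ℝ} (h : BdAx Bd e) {Z : Finset X} {F : A} {c : ℝ}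
    (hF : Bd Z F c) (hc : c ≤ 1 / 3) : Bd Z (R165.exA e F - 1) (6 * c) ∧ Bd Z (R165.exA e F - 1 - F) (9 * c ^ 2) := by
  have c0 := h.nonneg hF
  have h1 : |3 * c| ≤ 1 := by rw [abs_of_nonneg (by positivity)]; linarith
  have h2 := (le_abs_self _).trans (Real.abs_exp_sub_one_le h1)
  have h3 := (le_abs_self _).trans (Real.abs_exp_sub_one_sub_id_le h1)
  rw [abs_of_nonneg (by positivity)] at h2
  exact ⟨h.mono (h.exA hF) le_rfl (by linarith), h.mono (h.exA2 hF) le_rfl (by linarith)⟩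


end Crest.Agent.R165
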