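import Crest.Agent.R165.P.Xi

/-! # R165 block P, Exact: the step is exact (owner helper58; statements frozen, add lemmas freely) -/

set_option autoImplicit false
set_option linter.unusedSectionVars false
set_option linter.unusedVariables false
noncomputable section
open Classical

namespace Crest.Agent.R165

variable {X : Type} {A : Type} [CommRing A] [Algebra ℝ A] [Algebra ℚ A]

theorem sgl_mem {Lc : Finset X → Subalgebra ℝ A} {q : X → A} (hq : ∀ x, q x ∈ Lc {x}) (Y : Finset X) :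
    sgl q Y ∈ Lc Y := by
  rcases sgl_cases Y with ⟨x, rfl⟩ | h
  · rw [sgl_single]; exact hq x
  · rw [h]; exact zero_mem _

theorem sgl_exA_mem (e : A →ₐ[ℝ] ℝ) {Lc : Finset X → Subalgebra ℝ A} {q : X → A} (hq : ∀ x, q x ∈ Lc {x})
    (Y : Finset X) : sgl (fun x => exA e (q x) - 1) Y ∈ Lc Y :=
  sgl_mem (fun x => sub_mem (exA_mem e (hq x)) (one_mem _)) Y

section
variable {G : Geo X} {Lc : Finset X → Subalgebra ℝ A} {S : Sp X A} (hS : S.Alg G Lc)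
include hS

theorem Sp.Alg.grp_mem (r r' : ℕ) {P K : Finset X → A} (hP : ∀ Y, P Y ∈ Lc Y) (hK : ∀ Y, K Y ∈ Lc Y) (Z : Finset X) :
    G.grp r r' P K Z ∈ Lc Z :=
  G.grp_mem r r' (fun Y hY => hS.mono hY (hP Y)) fun Y hY => hS.mono hY (hK Y)

theorem Sp.Alg.w_mem (s : St X A) (x : X) : S.w G s x ∈ Lc {x} := Subalgebra.sum_mem _ fun Y _ => by
  split_ifs
  exacts [Subalgebra.smul_mem _ (hS.loc_mem _ _) _, zero_mem _]

theorem Sp.Alg.W_mem (s : St X A) (Y : Finset X) : S.W G s Y ∈ Lc Y := by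
  rw [Sp.W]
  split_ifs
  exacts [Subalgebra.sum_mem _ fun x hx => hS.mono (Finset.singleton_subset_iff.2 hx)
    (Subalgebra.smul_mem _ (hS.loc_mem _ _) _), zero_mem _]

theorem Sp.Alg.Khat_mem (e : A →ₐ[ℝ] ℝ) {s : St X A} (hs : s.Lcl G Lc S.l) (Z : Finset X) : S.Khat G e s Z ∈ Lc Z :=
  hS.mu_mem (hS.grp_mem _ _ (sgl_exA_mem e fun x => add_mem (hs.q x) (hs.qm x)) (fun Y => add_mem (hs.M Y) (hs.K Y)) Z)

end

/-- `loc_mem`, `grp_mem`, `exA_mem`, `sgl_cases`, `grp_of_not_conn`. -/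
theorem next_lcl (G : Geo X) {e : A →ₐ[ℝ] ℝ} (hn : ∀ F, e F = 0 → IsNilpotent F)
    {Lc : Finset X → Subalgebra ℝ A} {S : Sp X A} (hS : S.Alg G Lc) {s : St X A} (hs : s.Lcl G Lc S.l) :
    (S.next G e s).Lcl G Lc S.l' ∧ ∀ x, S.w G s x ∈ Lc {x} := by
  have hM : ∀ Z, S.Mnext G e s Z ∈ Lc Z := fun Z => hS.mu_mem (hS.grp_mem _ _ (sgl_exA_mem e hs.qm) hs.M Z)
  have hMc : ∀ Z, ¬ G.Conn S.l' Z → S.Mnext G e s Z = 0 := fun Z hZ => by
    rw [Sp.Mnext, G.grp_of_not_conn _ _ _ hZ, map_zero]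
  refine ⟨⟨fun x => sub_mem (sub_mem (hS.w_mem s x) (hS.cst_mem (hS.w_mem s x))) (hS.mv_mem x (hS.w_mem s x)),
    fun x => hS.mv_mem x (hS.w_mem s x), hM, fun Z => sub_mem (hS.grp_mem _ _
      (fun Y => sub_mem (exA_mem e (neg_mem (hS.W_mem s Y))) (one_mem _)) (hS.Khat_mem e hs) Z) (hM Z), hMc,
    fun Z hZ => ?_⟩, hS.w_mem s⟩
  simp only [Sp.next, G.grp_of_not_conn _ _ _ hZ, hMc Z hZ, sub_zero]

theorem St.In.sgl {B : Type} [CommRing B] {Λ : Finset X} {q : X → B} (hq : ∀ x, x ∉ Λ → q x = 0) {Y : Finset X}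
    (h : ¬ Y ⊆ Λ) : sgl q Y = 0 :=
  sgl_eq_zero q fun x e => hq x fun hx => h (e ▸ Finset.singleton_subset_iff.2 hx)

theorem St.In.Wx (S : Sp X A) {s : St X A} {Λ : Finset X} (hs : s.In Λ) (x : X) {Y : Finset X} (h : ¬ Y ⊆ Λ) :
    S.Wx s x Y = 0 := by
  rw [Sp.Wx, hs.K Y h, St.In.sgl hs.q h, add_zero, map_zero, map_zero, smul_zero]

/-- `grp_of_not_subset`, `sgl_eq_zero`, `exA_zero`. -/
theorem next_in (G : Geo X) {e : A →ₐ[ℝ] ℝ} {Lc : Finset X → Subalgebra ℝ A} {S : Sp X A} (hS : S.Alg G Lc)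
    {s : St X A} {Λ : Finset X} (hs : s.In Λ) : (S.next G e s).In Λ ∧ ∀ x, x ∉ Λ → S.w G s x = 0 := by
  have hw : ∀ x, x ∉ Λ → S.w G s x = 0 := fun x hx => Finset.sum_eq_zero fun Y _ => by
    split_ifs with h
    exacts [hs.Wx S x fun h' => hx (h' h.2), rfl]
  have hM : ∀ Z, ¬ Z ⊆ Λ → S.Mnext G e s Z = 0 := fun Z hZ => by
    rw [Sp.Mnext, G.grp_of_not_subset _ _ (fun Y => St.In.sgl fun x hx => by rw [hs.qm x hx, exA_zero, sub_self])
      hs.M hZ, map_zero]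
  refine ⟨⟨fun x hx => by simp [Sp.next, hw x hx], fun x hx => by simp [Sp.next, hw x hx], hM, fun Z hZ => ?_⟩, hw⟩
  simp only [Sp.next, hM Z hZ, sub_zero]
  refine G.grp_of_not_subset _ _ (fun Y hY => ?_) (fun Y hY => ?_) hZ
  · simp [Sp.W, fun x => hs.Wx S x hY, exA_zero]
  · rw [Sp.Khat, G.grp_of_not_subset _ _ (fun Y => St.In.sgl fun x hx => by
      rw [hs.qm x hx, hs.q x hx, add_zero, exA_zero, sub_self]) (fun Y hY => by rw [hs.M Y hY, hs.K Y hY, add_zero]) hY,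
      map_zero]

/-- Swap the sums: `Small l Y ∧ x ∈ Y` gives `Y ⊆ ball x (2l)`, and `Wx x Y = 0` unless `Y ⊆ Λ`. -/
theorem sum_w (G : Geo X) (S : Sp X A) {s : St X A} {Λ : Finset X} (hΛ : s.In Λ) :
    ∑ x ∈ Λ, S.w G s x = ∑ Y ∈ Λ.powerset, S.W G s Y := by
  have e : ∀ x ∈ Λ, S.w G s x = ∑ Y ∈ Λ.powerset, if G.Small S.l Y ∧ x ∈ Y then S.Wx s x Y else 0 := fun x _ => by
    rw [Sp.w, ← Finset.sum_filter_ne_zero, ← Finset.sum_filter_ne_zero (s := Λ.powerset)]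
    refine Finset.sum_congr (Finset.ext fun Y => ?_) fun _ _ => rfl
    simp only [Finset.mem_filter, Finset.mem_powerset, and_congr_left_iff]
    intro h
    have h1 : G.Small S.l Y ∧ x ∈ Y := by_contra fun h1 => h (if_neg h1)
    exact iff_of_true (fun z hz => (G.mem_ball _ _ _).2 (h1.1.2 x h1.2 z hz))
      (by_contra fun h2 => h (by rw [hΛ.Wx S x h2, ite_self]))
  rw [Finset.sum_congr rfl e, Finset.sum_comm]
  refine Finset.sum_congr rfl fun Y hY => ?_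
  rw [Sp.W]
  split_ifs with h
  · simp only [h, true_and, Finset.sum_ite_mem, Finset.inter_eq_right.2 (Finset.mem_powerset.1 hY)]
  · simp [h]

/-- `exA_sum`, `prod_one_add_sgl`, `xi_grp`, `mu_xi`. -/
theorem mu_exA_xi (G : Geo X) {e : A →ₐ[ℝ] ℝ} (hn : ∀ F, e F = 0 → IsNilpotent F)
    {Lc : Finset X → Subalgebra ℝ A} {S : Sp X A} (hS : S.Alg G Lc) {q : X → A} {K : Finset X → A}
    (hq : ∀ x, q x ∈ Lc {x}) (hK : ∀ Z, K Z ∈ Lc Z) (hKc : ∀ Z, ¬ G.Conn S.l Z → K Z = 0) (Λ : Finset X) :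
    S.mu (exA e (∑ x ∈ Λ, q x) * G.Xi S.l K Λ) =
      G.Xi S.l' (fun Z => S.mu (G.grp S.l S.l' (sgl fun x => exA e (q x) - 1) K Z)) Λ := by
  have h1 := prod_one_add_sgl (fun x => exA e (q x) - 1) Λ
  simp only [add_sub_cancel] at h1
  rw [exA_sum e hn, ← h1, xi_grp G hS.le _ K
    (fun Z hZ => sgl_eq_zero _ fun x (h : Z = {x}) => absurd (h ▸ G.conn_single _ x) hZ)
    (fun Z hZ => hKc Z fun h => hZ (h.mono hS.le)), mu_xi G hS (hS.grp_mem _ _ (sgl_exA_mem e hq) hK)]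

/-- **the step is exact**: `mu_exA_xi`, then `xi_grp` with `P Y = exA (-W Y) - 1` (`Small.conn`), `sum_w`, `exA_add`. -/
theorem next_Z (G : Geo X) {e : A →ₐ[ℝ] ℝ} (hn : ∀ F, e F = 0 → IsNilpotent F)
    {Lc : Finset X → Subalgebra ℝ A} {S : Sp X A} (hS : S.Alg G Lc) {s : St X A} (hs : s.Lcl G Lc S.l)
    {Λ : Finset X} (hΛ : s.In Λ) :
    S.mu (s.Z G e S.l Λ) = exA e (∑ x ∈ Λ, S.en G s x) * (S.next G e s).Z G e S.l' Λ := by
  have h1 := xi_grp G le_rfl (fun Y => exA e (-S.W G s Y) - 1) (S.Khat G e s)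
    (fun Z hZ => by rw [Sp.W, if_neg fun h => hZ (h.conn hS.two), neg_zero, exA_zero, sub_self])
    (fun Z hZ => by rw [Sp.Khat, G.grp_of_not_conn _ _ _ hZ, map_zero]) Λ
  simp only [add_sub_cancel] at h1
  rw [St.Z, St.Z, mu_exA_xi G hn hS (fun x => add_mem (hs.q x) (hs.qm x)) (fun Y => add_mem (hs.M Y) (hs.K Y))
    fun Z hZ => by rw [hs.Mc Z hZ, hs.Kc Z hZ, add_zero]]
  simp only [Sp.next, Sp.en, add_sub_cancel, sub_add_cancel]
  rw [← h1, ← exA_sum e hn, ← mul_assoc, ← mul_assoc, ← exA_add e hn, ← exA_add e hn, ← Finset.sum_add_distrib,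
    Finset.sum_neg_distrib, ← sum_w G S hΛ]
  simp only [add_sub_cancel, add_neg_cancel, exA_zero, one_mul]
  rfl

/-- the background evolves by itself -/
theorem mnext_xi (G : Geo X) {e : A →ₐ[ℝ] ℝ} (hn : ∀ F, e F = 0 → IsNilpotent F)
    {Lc : Finset X → Subalgebra ℝ A} {S : Sp X A} (hS : S.Alg G Lc) {s : St X A} (hs : s.Lcl G Lc S.l)
    {Λ : Finset X} (hΛ : s.In Λ) :
    S.mu (exA e (∑ x ∈ Λ, s.qm x) * G.Xi S.l s.M Λ) = G.Xi S.l' (S.next G e s).M Λ := by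
  exact mu_exA_xi G hn hS hs.qm hs.M hs.Mc Λ

end Crest.Agent.R165
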