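import Crest.Agent.R165.P.Tree
import Crest.Agent.R165.P.Exact

/-! # R165 block P, Bound: the step contracts (owner helper58; statements frozen, add lemmas freely) -/

set_option autoImplicit false
set_option linter.unusedSectionVars false
set_option linter.unusedVariables false
noncomputable section
open Classical

namespace Crest.Agent.R165

variable {X : Type} {A : Type} [CommRing A] [Algebra ℝ A] [Algebra ℚ A]

theorem Geo.PN.conn {G : Geo X} {Bd : Finset X → A → ℝ → Prop} {e : A →ₐ[ℝ] ℝ} (hB : BdAx Bd e) {l : ℕ} {a α : ℝ}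
    (ha : 0 ≤ a) {K : Finset X → A} (h : G.PN Bd l a K α) (hc : ∀ Z, ¬ G.Conn l Z → K Z = 0) :
    ∃ b : Finset X → ℝ, (∀ Z, 0 ≤ b Z) ∧ (∀ Z, Bd Z (K Z) (b Z)) ∧ (∀ Z, ¬ G.Conn l Z → b Z = 0) ∧ G.NB l a b α := by
  obtain ⟨b, h1, h2⟩ := h
  refine ⟨fun Z => if G.Conn l Z then b Z else 0, fun Z => ?_, fun Z => ?_, fun Z hZ => if_neg hZ,
    Geo.NB.mono h2 ha le_rfl (fun Z => ?_) (fun Z => (h1 Z).1) le_rfl⟩ <;> (try dsimp only) <;> split_ifs with h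
  exacts [(h1 Z).1, le_rfl, (h1 Z).2, hc Z h ▸ hB.zero Z, le_rfl, (h1 Z).1]

theorem sgl_add {B : Type} [CommRing B] (p p' : X → B) (Z : Finset X) :
    sgl (fun x => p x + p' x) Z = sgl p Z + sgl p' Z := by
  rcases sgl_cases Z with ⟨x, rfl⟩ | h
  · simp only [sgl_single]
  · simp only [h, add_zero]

theorem sgl_nonneg {p : X → ℝ} (h : ∀ x, 0 ≤ p x) (Z : Finset X) : 0 ≤ sgl p Z := by
  rcases sgl_cases Z with ⟨x, rfl⟩ | h'
  · rw [sgl_single]; exact h x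
  · rw [h']

theorem sgl_of_not_conn {B : Type} [CommRing B] (G : Geo X) (p : X → B) {l : ℕ} {Z : Finset X} (h : ¬ G.Conn l Z) :
    sgl p Z = 0 := sgl_eq_zero p fun x e => absurd (e ▸ G.conn_single l x) h

theorem Geo.not_conn_empty (G : Geo X) (l : ℕ) : ¬ G.Conn l ∅ := fun h => h.1.ne_empty rfl

section
variable {G : Geo X} {e : A →ₐ[ℝ] ℝ} {Lc : Finset X → Subalgebra ℝ A} {S : Sp X A} {Bd Bd' : Finset X → A → ℝ → Prop}
  {Λ θ : ℝ} {κ : X → ℝ} {s : St X A}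

theorem nb_mu (hB : BdAx Bd e) (hB' : BdAx Bd' e) (hA : S.Ana G Lc Bd Bd' Λ θ κ) (hΛ : 1 ≤ Λ) {Z : Finset X} {F : A}
    {c : ℝ} (h0 : Z = ∅ → F = 0) (h : Bd Z F c) : Bd' Z (S.mu F) (Λ ^ G.cov S.l' Z * c) := by
  rcases Z.eq_empty_or_nonempty with hZ | hZ
  · rw [h0 hZ, map_zero]
    exact hB'.mono (hB'.zero Z) subset_rfl (mul_nonneg (by positivity) (hB.nonneg h))
  · exact hA.h1 hZ h

theorem nb_avg (hB' : BdAx Bd' e) {Z : Finset X} {F : X → A} {c : X → ℝ} (h : ∀ x ∈ Z, Bd' Z (F x) (c x)) :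
    Bd' Z (∑ x ∈ Z, (Z.card : ℝ)⁻¹ • F x) ((Z.card : ℝ)⁻¹ * ∑ x ∈ Z, c x) := by
  rw [Finset.mul_sum]
  exact hB'.sum _ fun x hx => by simpa using hB'.smul (Z.card : ℝ)⁻¹ (h x hx)

theorem nb_W (hB : BdAx Bd e) (hB' : BdAx Bd' e) (hA : S.Ana G Lc Bd Bd' Λ θ κ) (hΛ : 1 ≤ Λ) (hs : s.Lcl G Lc S.l)
    {k : Finset X → ℝ} {qb : X → ℝ} (hk : ∀ Z, Bd Z (s.K Z) (k Z)) (hq : ∀ x, Bd {x} (s.q x) (qb x)) (Z : Finset X) :
    Bd' Z (S.W G s Z) (Λ * (k Z + sgl qb Z)) := by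
  have h1 := hB.add (hk Z) (hB.sgl hq Z)
  rw [Sp.W]
  split_ifs with h
  · have h2 : s.K Z + sgl s.q Z ∈ Lc Z := by
      refine add_mem (hs.K Z) ?_
      rcases sgl_cases Z with ⟨x, rfl⟩ | h'
      · rw [sgl_single]; exact hs.q x
      · rw [h']; exact zero_mem _
    have := nb_avg hB' fun x hx => hB'.mono (hA.h3 h hx h2 h1) (Finset.singleton_subset_iff.2 hx) le_rfl
    rwa [Finset.sum_const, nsmul_eq_mul, inv_mul_cancel_left₀ (by simpa using h.1.ne_empty)] at this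
  · exact hB'.mono (hB'.zero Z) subset_rfl (mul_nonneg (by positivity) (hB.nonneg h1))

theorem nb_lin (hB : BdAx Bd e) (hB' : BdAx Bd' e) (hA : S.Ana G Lc Bd Bd' Λ θ κ) (hΛ : 1 ≤ Λ) (hs : s.Lcl G Lc S.l)
    {k : Finset X → ℝ} {d : X → ℝ} (hk : ∀ Z, Bd Z (s.K Z) (k Z))
    (hd : ∀ x, Bd' {x} (S.mu (s.q x) - S.loc x (S.mu (s.q x))) (d x)) (Z : Finset X) :
    Bd' Z (S.mu (s.K Z + sgl s.q Z) - S.W G s Z)
      ((if G.Small S.l Z then (Z.card : ℝ)⁻¹ * (∑ x ∈ Z, κ x) * k Z else 0) + sgl d Z +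
        Λ ^ G.cov S.l' Z * if G.Small S.l Z then 0 else k Z) := by
  rw [Sp.W]
  split_ifs with h
  · have h1 := hB'.add (nb_avg hB' fun x hx => hA.h2 h hx (hs.K Z) (hk Z)) (hB'.sgl hd Z)
    have h2 : sgl (fun x => S.mu (s.q x) - S.loc x (S.mu (s.q x))) Z =
        S.mu (sgl s.q Z) - ∑ x ∈ Z, (Z.card : ℝ)⁻¹ • S.loc x (S.mu (sgl s.q Z)) := by
      rcases sgl_cases Z with ⟨x, rfl⟩ | h'
      · simp [sgl_single]
      · simp [h']
    have h3 : ∑ x ∈ Z, (Z.card : ℝ)⁻¹ • S.mu (s.K Z) = S.mu (s.K Z) := by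
      rw [Finset.sum_const, ← Nat.cast_smul_eq_nsmul ℝ, smul_inv_smul₀ (by simpa using h.1.ne_empty)]
    rw [h2, ← Finset.sum_mul, ← mul_assoc] at h1
    simp only [smul_sub, Finset.sum_sub_distrib, h3] at h1
    simp only [Sp.Wx, map_add, smul_add, Finset.sum_add_distrib, mul_zero, add_zero]
    convert h1 using 1
    ring
  · have h1 : ∀ (B : Type) [CommRing B] (p : X → B), sgl p Z = 0 :=
      (sgl_cases Z).resolve_left fun ⟨x, hx⟩ => h (hx ▸ G.small_single _ x)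
    simp only [h1, add_zero, sub_zero, zero_add]
    exact nb_mu hB hB' hA hΛ (fun h => hs.Kc Z (h ▸ G.not_conn_empty _)) (hk Z)

theorem nb_eq (hn : ∀ F, e F = 0 → IsNilpotent F) {Z : Finset X} (hZ : G.Conn S.l' Z) {P₀ P' P₂ : Finset X → A}
    (h₀ : P₀ = sgl fun x => exA e (s.qm x) - 1) (h' : P' = sgl fun x => exA e (s.q x + s.qm x) - exA e (s.qm x))
    (h₂ : P₂ = fun Y => exA e (-S.W G s Y) - 1) : (S.next G e s).K Z =
      S.mu (s.K Z + sgl s.q Z) - S.W G s Z + S.mu (sgl (fun x => exA e (s.q x + s.qm x) - exA e (s.qm x) - s.q x) Z) +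
        S.mu (G.grp2 S.l S.l' (fun Y => P₀ Y + P' Y) (fun Y => s.M Y + s.K Y) Z - G.grp2 S.l S.l' P₀ s.M Z) +
        (exA e (-S.W G s Z) - 1 - -S.W G s Z) +
        (G.grp2 S.l' S.l' (fun Y => 0 + P₂ Y) (fun Y => S.Khat G e s Y + 0) Z -
          G.grp2 S.l' S.l' (fun _ => 0) (S.Khat G e s) Z) := by
  have e1 : (sgl fun x => exA e (s.q x + s.qm x) - 1) = fun Y => P₀ Y + P' Y := funext fun Y => by
    rw [h₀, h', ← sgl_add]
    simp only [sub_add_sub_cancel']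
  have e2 : P' Z = sgl s.q Z + sgl (fun x => exA e (s.q x + s.qm x) - exA e (s.qm x) - s.q x) Z := by
    rw [h', ← sgl_add]
    simp only [add_sub_cancel]
  simp only [Sp.next, G.grp2_zero, zero_add, add_zero, sub_zero]
  rw [G.grp_split _ _ _ hZ, ← h₂, Sp.Khat, Sp.Mnext, e1, ← h₀, G.grp_split _ _ _ hZ, G.grp_split _ _ _ hZ, e2, h₂]
  simp only [map_add, map_sub]
  ring

end

/-- **the step contracts.** `αd` bounds the dumped part of `q`. -/
theorem next_bound (L : ℕ) (hL : 4 ≤ L) (Λ θ a : ℝ) (hΛ : 1 ≤ Λ) (hθ : 0 < θ) (ha : 9 * Λ ≤ a)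
    (ha' : ((2 * L + 3 : ℕ) : ℝ) ^ 2 * Λ ≤ θ * a) :
    ∃ C ε : ℝ, 0 < C ∧ 0 < ε ∧ ∀ (X A : Type) [CommRing A] [Algebra ℝ A] [Algebra ℚ A] (G : Geo X)
      (e : A →ₐ[ℝ] ℝ) (Lc : Finset X → Subalgebra ℝ A) (S : Sp X A) (Bd Bd' : Finset X → A → ℝ → Prop)
      (κ : X → ℝ) (s : St X A) (αK αq αd εM : ℝ),
      1 ≤ S.l → S.l' = L * S.l → BdAx Bd e → BdAx Bd' e → S.Alg G Lc → S.Ana G Lc Bd Bd' Λ θ κ →
      s.Lcl G Lc S.l → αK ≤ ε → αq ≤ ε → εM ≤ ε →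
      G.PN Bd S.l a s.K αK → G.PN Bd S.l a s.M εM → G.SN Bd S.l s.q αq → G.SN Bd S.l s.qm αq →
      G.SN Bd' S.l' (fun x => S.mu (s.q x) - S.loc x (S.mu (s.q x))) αd →
      G.PN Bd' S.l' a (S.next G e s).K (2 * θ * αK + a * αd + C * (αK + αq) * (αK + αq + εM)) := by
  obtain ⟨N, hN⟩ : ∃ N : ℝ, N = ((2 * L + 3 : ℕ) : ℝ) ^ 2 := ⟨_, rfl⟩
  have hN1 : 1 ≤ N := hN ▸ one_le_pow₀ (by exact_mod_cast (by omega : 1 ≤ 2 * L + 3))
  have ha1 : 1 ≤ a := by linarith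
  obtain ⟨τ, hτ⟩ : ∃ τ : ℝ, τ = N * (9 * Λ) * a * Λ := ⟨_, rfl⟩
  have hτ3 : N * (9 * Λ) * a ≤ τ := hτ ▸ le_mul_of_one_le_right (by positivity) hΛ
  have hτ2 : N * (9 * Λ) ≤ τ := (le_mul_of_one_le_right (by positivity) ha1).trans hτ3
  have hτ1 : 1 ≤ τ := le_trans (by nlinarith) hτ2
  refine ⟨200000 * τ ^ 2, 1 / (98 * 126 * τ), by positivity, by positivity,
    fun X A _ _ _ G e Lc S Bd Bd' κ s αK αq αd εM hl hl' hB hB' hS hA hs h1 h2 h3 hK hM hq hqm hd => ?_⟩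
  have hn := hB.nil
  have hKc := (next_lcl G hn hS hs).1.Kc
  rcases isEmpty_or_nonempty X with hX | ⟨⟨y₀⟩⟩
  · exact ⟨fun _ => 0, fun Z => ⟨le_rfl, hKc Z (fun h => h.1.elim fun x _ => isEmptyElim x) ▸ hB'.zero Z⟩,
      fun y => isEmptyElim y⟩
  rw [le_div_iff₀ (by positivity)] at h1 h2 h3
  obtain ⟨k, k0, kB, kc, kN⟩ := hK.conn hB (by positivity) hs.Kc
  obtain ⟨m, m0, mB, mc, mN⟩ := hM.conn hB (by positivity) hs.Mc
  obtain ⟨qb, qB, qN⟩ := hq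
  obtain ⟨rb, rB, rN⟩ := hqm
  obtain ⟨d, dB, dN⟩ := hd
  have hK0 := kN.nonneg y₀
  have hM0 := mN.nonneg y₀
  have hq0 : 0 ≤ αq := (Finset.sum_nonneg fun x _ => (qB x).1).trans (qN y₀)
  have hx : ∀ x, x ∈ G.ball x S.l := fun x => (G.mem_ball _ _ _).2 (by rw [G.d_self]; exact Nat.zero_le _)
  have q1 : ∀ x, qb x ≤ αq := fun x => (Finset.single_le_sum (fun x _ => (qB x).1) (hx x)).trans (qN x)
  have r1 : ∀ x, rb x ≤ αq := fun x => (Finset.single_le_sum (fun x _ => (rB x).1) (hx x)).trans (rN x)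
  have hq6 : αq ≤ 1 / 6 := by nlinarith
  obtain ⟨α, hα⟩ : ∃ α, α = αK + αq := ⟨_, rfl⟩
  obtain ⟨β, hβ⟩ : ∃ β, β = α + εM := ⟨_, rfl⟩
  have hα0 : 0 ≤ α := by linarith
  have hαβ : α ≤ β := by linarith
  have hβ1 : 42 * (τ * β) ≤ 1 / 98 := by rw [hβ, hα]; linarith
  have hτα : τ * α ≤ τ * β := mul_le_mul_of_nonneg_left hαβ (by positivity)
  have hτα0 : 0 ≤ τ * α := by positivity
  have re : ∀ {b : Finset X → ℝ} {γ : ℝ}, G.NB S.l a b γ → (∀ Z, 0 ≤ b Z) → (∀ Z, ¬ G.Conn S.l Z → b Z = 0) →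
      G.NB S.l' (a * (9 * Λ)) b (N * (9 * Λ) * γ) := fun h h0 hc => by
    rw [hl', hN]
    exact h.reblock hL hl ha1 h0 hc (by linarith) ha
  have rs : ∀ {g : X → ℝ} (c : ℝ), 0 ≤ c → (∀ x, 0 ≤ g x) → (∀ y, ∑ x ∈ G.ball y S.l, g x ≤ αq) →
      G.NB S.l' (a * (9 * Λ)) (sgl fun x => c * g x) (N * (9 * Λ) * (a * (c * αq))) := fun c hc h0 h =>
    re (Geo.NB.sgl (fun x => mul_nonneg hc (h0 x)) (fun y => by
      rw [← Finset.mul_sum]; exact mul_le_mul_of_nonneg_left (h y) hc) (by positivity))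
      (sgl_nonneg fun x => mul_nonneg hc (h0 x)) fun Z hZ => sgl_of_not_conn G _ hZ
  have eq := fun x => hB.exA_le (qB x).2 ((q1 x).trans (by linarith))
  have er := fun x => hB.exA_le (rB x).2 ((r1 x).trans (by linarith))
  have b₀ := hB.sgl fun x => (er x).1
  have b₁ := hB.sgl (q := fun x => exA e (s.q x + s.qm x) - exA e (s.qm x)) (b := fun x => 12 * qb x) fun x => by
    have := hB.mono (hB.add (hB.mul (eq x).1 (er x).1) (eq x).1) subset_rfl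
      (show _ ≤ 12 * qb x by nlinarith [(qB x).1, r1 x])
    convert this using 1
    rw [exA_add e hn]; ring
  have b₂ := hB.sgl (q := fun x => exA e (s.q x + s.qm x) - exA e (s.qm x) - s.q x) (b := fun x => 45 * αq * qb x)
    fun x => by
      have := hB.mono (hB.add (hB.mul (eq x).1 (er x).1) (eq x).2) subset_rfl
        (show _ ≤ 45 * αq * qb x by nlinarith [(qB x).1, r1 x, q1 x])
      convert this using 1
      rw [exA_add e hn]; ring
  have p0 := fun Z => hB.nonneg (b₀ Z)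
  have p1 := fun Z => hB.nonneg (b₁ Z)
  have p2 := fun Z => hB.nonneg (b₂ Z)
  have s0 : ∀ g : X → ℝ, sgl g ∅ = 0 := fun g => sgl_of_not_conn G g (G.not_conn_empty 0)
  have n₀ : G.NB S.l' (a * (9 * Λ)) (fun Z => sgl (fun x => 6 * rb x) Z + m Z) (6 * (τ * β)) :=
    ((rs 6 (by norm_num) (fun x => (rB x).1) rN).add (re mN m0 mc)).mono (by positivity) le_rfl (fun _ => le_rfl)
      (fun Z => add_nonneg (p0 Z) (m0 Z)) (by
        rw [hβ, hα]
        nlinarith [mul_le_mul_of_nonneg_right hτ3 hq0, mul_le_mul_of_nonneg_right hτ2 hM0,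
          mul_nonneg (zero_le_one.trans hτ1) hK0, mul_nonneg (zero_le_one.trans hτ1) hM0])
  have n₁ : G.NB S.l' (a * (9 * Λ)) (fun Z => sgl (fun x => 12 * qb x) Z + k Z) (12 * (τ * α)) :=
    ((rs 12 (by norm_num) (fun x => (qB x).1) qN).add (re kN k0 kc)).mono (by positivity) le_rfl (fun _ => le_rfl)
      (fun Z => add_nonneg (p1 Z) (k0 Z)) (by
        rw [hα]
        nlinarith [mul_le_mul_of_nonneg_right hτ3 hq0, mul_le_mul_of_nonneg_right hτ2 hK0,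
          mul_nonneg (zero_le_one.trans hτ1) hK0])
  have haΛ : 1 ≤ a * Λ := one_le_mul_of_one_le_of_one_le ha1 hΛ
  have nD₁ := (Geo.NB.grp2 S.l (a := a * Λ) (hl.trans hS.le) haΛ p0 m0 p1 k0 (s0 _) (s0 _)
    (n₀.mono (by positivity) (by linarith) (fun _ => le_rfl) (fun Z => add_nonneg (p0 Z) (m0 Z)) le_rfl)
    (n₁.mono (by positivity) (by linarith) (fun _ => le_rfl) (fun Z => add_nonneg (p1 Z) (k0 Z)) le_rfl)
    (by linarith)).pow
  have bD₁ := fun Z => nb_mu hB hB' hA hΛ (fun h : Z = ∅ => by simp [h, Geo.grp2, G.not_conn_empty])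
    (G.bd_grp2 hB S.l S.l' b₀ mB b₁ kB Z)
  have nH := (Geo.NB.grp S.l (a := a * 3 * Λ) (hl.trans hS.le) (by linarith) (fun Z => add_nonneg (p0 Z) (p1 Z))
    (fun Z => add_nonneg (m0 Z) (k0 Z)) (by simp [s0]) (δ := 18 * (τ * β))
    ((n₀.add n₁).mono (by positivity) (by linarith) (fun Z => by linarith)
      (fun Z => add_nonneg (add_nonneg (p0 Z) (m0 Z)) (add_nonneg (p1 Z) (k0 Z))) (by linarith)) (by linarith)).pow
  have bH : ∀ Z, Bd' Z (S.Khat G e s Z) _ := fun Z => nb_mu hB hB' hA hΛ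
    (fun h : Z = ∅ => G.grp_of_not_conn _ _ _ (h ▸ G.not_conn_empty _))
    (G.bd_grp hB S.l S.l' (fun Y => by
      have := hB.add (b₀ Y) (b₁ Y)
      rw [← sgl_add] at this
      simpa only [sub_add_sub_cancel'] using this) (fun Y => hB.add (mB Y) (kB Y)) Z)
  have bW := nb_W hB hB' hA hΛ hs kB fun x => (qB x).2
  have w0 := fun Z => hB'.nonneg (bW Z)
  have nW : G.NB S.l' (a * (9 * Λ)) (fun Z => Λ * (k Z + sgl qb Z)) (τ * α) := by
    have := rs 1 zero_le_one (fun x => (qB x).1) qN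
    simp only [one_mul] at this
    refine (((re kN k0 kc).add this).smul (zero_le_one.trans hΛ)).mono (by positivity) le_rfl (fun _ => le_rfl) w0 ?_
    rw [hα, hτ]
    nlinarith [mul_le_mul_of_nonneg_left ha1 (show 0 ≤ N * (9 * Λ) * Λ * αK by positivity)]
  have w1 : ∀ Z, Λ * (k Z + sgl qb Z) ≤ τ * α := fun Z => by
    rcases Z.eq_empty_or_nonempty with rfl | hZ
    · simpa [s0, kc ∅ (G.not_conn_empty _)] using hτα0
    · exact nW.le (by linarith) w0 hZ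
  have eW := fun Z => hB'.exA_le (hB'.neg (bW Z)) ((w1 Z).trans (by linarith))
  have nD₂ := Geo.NB.grp2 S.l' (a := a) (p := fun _ => 0) (k' := fun _ => 0) (hl.trans hS.le) ha1 (fun _ => le_rfl)
    (fun Z => hB'.nonneg (bH Z)) (fun Z => hB'.nonneg (eW Z).1) (fun _ => le_rfl) rfl
    (by simp [s0, kc ∅ (G.not_conn_empty _)]) (by simpa only [zero_add] using nH)
    ((nW.smul (c := 6) (by norm_num)).mono (by positivity) (by nlinarith) (fun Z => (add_zero _).le)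
      (fun Z => hB'.nonneg (eW Z).1) le_rfl) (by linarith)
  have bD₂ := G.bd_grp2 hB' S.l' S.l' (fun Y => hB'.zero Y) bH (fun Y => (eW Y).1) fun Y => hB'.zero Y
  have hall := fun Z => hB'.add (hB'.add (hB'.add (hB'.add (nb_lin hB hB' hA hΛ hs kB (fun x => (dB x).2) Z)
    (nb_mu hB hB' hA hΛ (fun h : Z = ∅ => sgl_of_not_conn G _ (h ▸ G.not_conn_empty 0)) (b₂ Z))) (bD₁ Z))
    (hB'.mono (eW Z).2 subset_rfl (show _ ≤ 9 * (τ * α) * (Λ * (k Z + sgl qb Z)) by nlinarith [w0 Z, w1 Z]))) (bD₂ Z)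
  have nL : G.NB S.l' a (fun Z => Λ ^ G.cov S.l' Z * if G.Small S.l Z then 0 else k Z) (N * Λ / a * αK) := by
    rw [hl', hN]
    exact (kN.large hL hl ha1 k0 kc hΛ (by linarith)).pow
  have nall := ((((((kN.small hS.two ha1 k0 hA.κ_nonneg hA.κ_sum).add
    (Geo.NB.sgl (fun x => (dB x).1) dN (zero_le_one.trans ha1))).add nL).add
    ((rs (45 * αq) (by positivity) (fun x => (qB x).1) qN).mono (a' := a * Λ) (by positivity) (by linarith)
      (fun _ => le_rfl) p2 le_rfl).pow).add nD₁).add ((nW.mono (a' := a) (by positivity) (by nlinarith)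
        (fun _ => le_rfl) w0 le_rfl).smul (c := 9 * (τ * α)) (by positivity))).add nD₂
  refine ⟨_, fun Z => ⟨hB'.nonneg (hall Z), ?_⟩, fun y 𝒮 h𝒮 => (nall y 𝒮 h𝒮).trans ?_⟩
  · by_cases hZ : G.Conn S.l' Z
    · rw [nb_eq hn hZ rfl rfl rfl]
      exact hall Z
    · rw [hKc Z hZ]
      exact hB'.mono (hB'.zero Z) subset_rfl (hB'.nonneg (hall Z))
  · have e1 : N * Λ / a * αK ≤ θ * αK :=
      mul_le_mul_of_nonneg_right ((div_le_iff₀ (by positivity)).2 (hN ▸ ha')) hK0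
    have e2 : N * (9 * Λ) * (a * (45 * αq * αq)) ≤ 45 * (τ * α * (τ * β)) := by
      have e3 : αq * αq ≤ α * β := mul_le_mul (by linarith) (by linarith) hq0 hα0
      have e4 := mul_le_mul (hτ3.trans (le_mul_of_one_le_right (zero_le_one.trans hτ1) hτ1)) e3 (by positivity)
        (by positivity)
      linarith
    rw [← hα, ← hβ]
    nlinarith [mul_le_mul_of_nonneg_left hτα hτα0, mul_nonneg hτα0 (hτα0.trans hτα)]

end Crest.Agent.R165
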