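import Crest.Agent.R165.P.Xi

/-! # R165 block P, Cov: covering numbers, real polymer norms, reblocking (owner helper58; statements frozen, add lemmas freely) -/

set_option autoImplicit false
set_option linter.unusedSectionVars false
set_option linter.unusedVariables false
noncomputable section
open Classical

namespace Crest.Agent.R165

variable {X : Type} {A : Type} [CommRing A] [Algebra ℝ A] [Algebra ℚ A]

namespace Geo
variable (G : Geo X)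

/-- the real part of `PN` -/
def NB (l : ℕ) (a : ℝ) (b : Finset X → ℝ) (α : ℝ) : Prop :=
  ∀ (y : X) (𝒮 : Finset (Finset X)), (∀ Z ∈ 𝒮, ∃ z ∈ Z, G.d y z ≤ l) → ∑ Z ∈ 𝒮, a ^ G.cov l Z * b Z ≤ α

theorem cov_spec (l : ℕ) (Z : Finset X) : ∃ C : Finset X, C.card = G.cov l Z ∧ ∀ z ∈ Z, ∃ c ∈ C, G.d c z ≤ l := by
  exact Nat.sInf_mem (s := {n | ∃ C : Finset X, C.card = n ∧ ∀ z ∈ Z, ∃ c ∈ C, G.d c z ≤ l})
    ⟨_, Z, rfl, fun z hz => ⟨z, hz, by rw [G.d_self]; exact Nat.zero_le _⟩⟩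

theorem cov_le {l : ℕ} {Z C : Finset X} (h : ∀ z ∈ Z, ∃ c ∈ C, G.d c z ≤ l) : G.cov l Z ≤ C.card := by
  exact Nat.sInf_le ⟨C, rfl, h⟩

theorem one_le_cov (l : ℕ) {Z : Finset X} (h : Z.Nonempty) : 1 ≤ G.cov l Z := by
  obtain ⟨C, h1, h2⟩ := G.cov_spec l Z
  obtain ⟨z, hz⟩ := h
  obtain ⟨c, hc, -⟩ := h2 z hz
  exact h1 ▸ Finset.card_pos.2 ⟨c, hc⟩

theorem cov_biUnion_le {ι : Type} (l : ℕ) (F : Finset ι) (f : ι → Finset X) :
    G.cov l (F.biUnion f) ≤ ∑ i ∈ F, G.cov l (f i) := by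
  choose C h1 h2 using fun i => G.cov_spec l (f i)
  refine (G.cov_le (C := F.biUnion C) fun z hz => ?_).trans (Finset.card_biUnion_le.trans_eq
    (Finset.sum_congr rfl fun i _ => h1 i))
  obtain ⟨i, hi, hz⟩ := Finset.mem_biUnion.1 hz
  obtain ⟨c, hc, h⟩ := h2 i z hz
  exact ⟨c, Finset.mem_biUnion.2 ⟨i, hi, hc⟩, h⟩

theorem cov_small {l l' : ℕ} (h : 2 * l ≤ l') {Z : Finset X} (hZ : G.Small l Z) : G.cov l' Z = 1 := by
  obtain ⟨x, hx⟩ := hZ.1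
  exact le_antisymm (G.cov_le (C := {x}) fun z hz => ⟨x, Finset.mem_singleton_self x, (hZ.2 x hx z hz).trans h⟩)
    (G.one_le_cov _ hZ.1)

theorem cov_single (l : ℕ) (x : X) : G.cov l {x} = 1 := by
  exact G.cov_small (l := 0) (Nat.zero_le l) (G.small_single 0 x)

theorem cover2 {l : ℕ} (hl : 1 ≤ l) (x : X) :
    ∃ C : Finset X, C.card ≤ 49 ∧ ∀ y, G.d x y ≤ 2 * l → ∃ c ∈ C, G.d c y ≤ l := by
  obtain ⟨C, h1, h2⟩ := G.cover x (2 * l) l hl
  rw [Nat.mul_div_cancel _ hl] at h1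
  exact ⟨C, h1, fun y hy => h2 y ((G.mem_ball _ _ _).2 hy)⟩

theorem cov_small_le {l : ℕ} (hl : 1 ≤ l) {Z : Finset X} (hZ : G.Small l Z) : G.cov l Z ≤ 49 := by
  obtain ⟨x, hx⟩ := hZ.1
  obtain ⟨C, h1, h2⟩ := G.cover2 hl x
  exact (G.cov_le fun z hz => h2 z (hZ.2 x hx z hz)).trans h1

/-- the `l`-neighbourhood of `Y` is covered by `49 cov Y` balls -/
theorem cover_nbhd {l : ℕ} (hl : 1 ≤ l) (Y : Finset X) :
    ∃ C : Finset X, C.card ≤ 49 * G.cov l Y ∧ ∀ y ∈ Y, ∀ z, G.d y z ≤ l → ∃ c ∈ C, G.d c z ≤ l := by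
  choose D h1 h2 using G.cover2 hl
  obtain ⟨C, h3, h4⟩ := G.cov_spec l Y
  refine ⟨C.biUnion D, (Finset.card_biUnion_le_card_mul _ _ 49 fun c _ => h1 c).trans_eq (by rw [h3, mul_comm]),
    fun y hy z hz => ?_⟩
  obtain ⟨c, hc, h5⟩ := h4 y hy
  obtain ⟨c', hc', h6⟩ := h2 c z (by have := G.d_tri c y z; omega)
  exact ⟨c', Finset.mem_biUnion.2 ⟨c, hc, hc'⟩, h6⟩

/-- **Reblocking.**  `C` a minimal cover; every `c ∈ C` covers some point (minimality) and has another centre within `3l`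
(follow an `l`-path of `Z` out of the ball of `c`).  `D ⊆ C` maximal with pairwise distances `> 3l`: both `D` and `C \\ D` are
`3l`-dense in `C`, so both cover `Z` at scale `4l`, and one of them has at most half of the points. -/
theorem reblock {l l' : ℕ} (h : 4 * l ≤ l') {Z : Finset X} (hc : G.Conn l Z) (hs : ¬ G.Small l Z) :
    2 * G.cov l' Z ≤ G.cov l Z := by
  obtain ⟨C, h1, h2⟩ := G.cov_spec l Z
  have hnb : ∀ c ∈ C, ∀ z ∈ Z, G.d c z ≤ l → ∃ c' ∈ C, c' ≠ c ∧ G.d c c' ≤ 3 * l := fun c _ z hz hcz => by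
    by_contra hne
    push Not at hne
    have h3 : ∀ w ∈ Z, G.d c w ≤ l := fun w hw => by
      have := hc.2 z hz w hw
      clear hw
      induction this with
      | refl => exact hcz
      | @tail u v _ h4 ih =>
        obtain ⟨c', hc', h5⟩ := h2 v h4.2.1
        by_cases e : c' = c
        · exact e ▸ h5
        have := hne c' hc' e
        have := G.d_tri c u c'
        have := G.d_tri u v c'
        have := G.d_comm v c'
        have := h4.2.2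
        omega
    exact hs ⟨⟨z, hz⟩, fun x hx y hy => by
      have := G.d_tri x c y
      have := G.d_comm x c
      have := h3 x hx
      have := h3 y hy
      omega⟩
  obtain ⟨D, hD, hmax⟩ := Set.exists_max_image {D : Finset X | D ⊆ C ∧ ∀ u ∈ D, ∀ v ∈ D, u ≠ v → 3 * l < G.d u v}
    Finset.card (C.powerset.finite_toSet.subset fun D hD => Finset.mem_powerset.2 hD.1) ⟨∅, by simp⟩
  have h3 : G.cov l' Z ≤ D.card := G.cov_le fun z hz => by
    obtain ⟨c, hc, h4⟩ := h2 z hz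
    by_contra hne
    push Not at hne
    have h5 : ∀ u ∈ D, 3 * l < G.d u c := fun u hu => by
      have := hne u hu
      have := G.d_tri u c z
      omega
    have h6 : c ∉ D := fun h6 => by simpa [G.d_self] using h5 c h6
    have := hmax (insert c D) ⟨Finset.insert_subset hc hD.1, fun u hu v hv huv => by
      rcases Finset.mem_insert.1 hu with rfl | hu' <;> rcases Finset.mem_insert.1 hv with rfl | hv'
      exacts [absurd rfl huv, G.d_comm v u ▸ h5 v hv', h5 u hu', hD.2 u hu' v hv' huv]⟩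
    rw [Finset.card_insert_of_notMem h6] at this
    omega
  have h4 : G.cov l' Z ≤ (C \ D).card := G.cov_le fun z hz => by
    obtain ⟨c, hc, h4⟩ := h2 z hz
    by_cases h5 : c ∈ D
    · obtain ⟨c', hc', h6, h7⟩ := hnb c hc z hz h4
      refine ⟨c', Finset.mem_sdiff.2 ⟨hc', fun h8 => (hD.2 c h5 c' h8 h6.symm).not_ge h7⟩, ?_⟩
      have := G.d_tri c' c z
      have := G.d_comm c' c
      omega
    · exact ⟨c, Finset.mem_sdiff.2 ⟨hc, h5⟩, by omega⟩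
  have := Finset.card_sdiff_add_card_eq_card hD.1
  omega

variable {G} {l : ℕ} {a a' α α' : ℝ} {b b' : Finset X → ℝ}

theorem NB.nonneg (h : G.NB l a b α) (y : X) : 0 ≤ α := by
  simpa using h y ∅ (by simp)

theorem NB.mono (h : G.NB l a b α) (ha' : 0 ≤ a') (ha : a' ≤ a) (hb' : ∀ Z, b' Z ≤ b Z) (hb : ∀ Z, 0 ≤ b Z)
    (hα : α ≤ α') : G.NB l a' b' α' := by
  exact fun y 𝒮 h𝒮 => (Finset.sum_le_sum fun Z _ => (mul_le_mul_of_nonneg_left (hb' Z) (pow_nonneg ha' _)).trans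
    (mul_le_mul_of_nonneg_right (pow_le_pow_left₀ ha' ha _) (hb Z))).trans ((h y 𝒮 h𝒮).trans hα)

theorem NB.add (h : G.NB l a b α) (h' : G.NB l a b' α') : G.NB l a (fun Z => b Z + b' Z) (α + α') := by
  intro y 𝒮 h𝒮
  simp only [mul_add, Finset.sum_add_distrib]
  exact add_le_add (h y 𝒮 h𝒮) (h' y 𝒮 h𝒮)

theorem NB.smul (h : G.NB l a b α) {c : ℝ} (hc : 0 ≤ c) : G.NB l a (fun Z => c * b Z) (c * α) := by
  intro y 𝒮 h𝒮
  simp only [mul_left_comm _ c, ← Finset.mul_sum]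
  exact mul_le_mul_of_nonneg_left (h y 𝒮 h𝒮) hc

theorem NB.pow (h : G.NB l (a * a') b α) : G.NB l a (fun Z => a' ^ G.cov l Z * b Z) α := by
  intro y 𝒮 h𝒮
  simpa only [mul_pow, mul_assoc] using h y 𝒮 h𝒮

theorem NB.le (h : G.NB l a b α) (ha : 1 ≤ a) (hb : ∀ Z, 0 ≤ b Z) {Z : Finset X} (hZ : Z.Nonempty) : b Z ≤ α := by
  obtain ⟨z, hz⟩ := hZ
  have := h z {Z} (by simpa using ⟨z, hz, by rw [G.d_self]; exact Nat.zero_le _⟩)
  rw [Finset.sum_singleton] at this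
  exact (le_mul_of_one_le_left (hb Z) (one_le_pow₀ ha)).trans this

theorem NB.near' (h : G.NB l a b α) (ha : 0 ≤ a) (hb : ∀ Z, 0 ≤ b Z) (C : Finset X) (w : X → ℝ) (hw : ∀ c ∈ C, 0 ≤ w c)
    (𝒮 : Finset (Finset X)) {f : Finset X → ℝ}
    (h𝒮 : ∀ Z ∈ 𝒮, ∃ c ∈ C, (∃ z ∈ Z, G.d c z ≤ l) ∧ f Z ≤ w c * (a ^ G.cov l Z * b Z)) :
    ∑ Z ∈ 𝒮, f Z ≤ (∑ c ∈ C, w c) * α := by
  have h0 : ∀ c ∈ C, ∀ Z, 0 ≤ if ∃ z ∈ Z, G.d c z ≤ l then w c * (a ^ G.cov l Z * b Z) else 0 := fun c hc Z => by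
    split_ifs
    exacts [mul_nonneg (hw c hc) (mul_nonneg (pow_nonneg ha _) (hb Z)), le_rfl]
  calc _ ≤ ∑ Z ∈ 𝒮, ∑ c ∈ C, if ∃ z ∈ Z, G.d c z ≤ l then w c * (a ^ G.cov l Z * b Z) else 0 :=
        Finset.sum_le_sum fun Z hZ => by
          obtain ⟨c, hc, h1, h2⟩ := h𝒮 Z hZ
          exact (h2.trans_eq (if_pos h1).symm).trans (Finset.single_le_sum (fun c hc => h0 c hc Z) hc)
    _ ≤ _ := by
        rw [Finset.sum_comm, Finset.sum_mul]
        refine Finset.sum_le_sum fun c hc => ?_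
        rw [← Finset.sum_filter, ← Finset.mul_sum]
        exact mul_le_mul_of_nonneg_left (h c _ fun Z hZ => (Finset.mem_filter.1 hZ).2) (hw c hc)

/-- polymers meeting one of the balls centred in `C` -/
theorem NB.near (h : G.NB l a b α) (ha : 0 ≤ a) (hb : ∀ Z, 0 ≤ b Z) (C : Finset X) (𝒮 : Finset (Finset X))
    (h𝒮 : ∀ Z ∈ 𝒮, ∃ c ∈ C, ∃ z ∈ Z, G.d c z ≤ l) : ∑ Z ∈ 𝒮, a ^ G.cov l Z * b Z ≤ C.card * α := by
  simpa using h.near' ha hb C (fun _ => 1) (fun _ _ => zero_le_one) 𝒮 fun Z hZ =>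
    (h𝒮 Z hZ).imp fun c hc => ⟨hc.1, hc.2, (one_mul _).ge⟩

theorem NB.sgl {q : X → ℝ} (hq : ∀ x, 0 ≤ q x) (h : ∀ y, ∑ x ∈ G.ball y l, q x ≤ α) (ha : 0 ≤ a) :
    G.NB l a (sgl q) (a * α) := by
  intro y 𝒮 h𝒮
  refine le_trans ?_ (mul_le_mul_of_nonneg_left (h y) ha)
  rw [Finset.mul_sum, ← Finset.sum_filter_ne_zero]
  refine le_trans (Finset.sum_le_sum_of_subset_of_nonneg (t := (G.ball y l).image fun x => ({x} : Finset X))
    (fun Z hZ => ?_) fun Z hZ _ => ?_) (le_of_eq ?_)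
  · rw [Finset.mem_filter] at hZ
    rcases sgl_cases Z with ⟨x, rfl⟩ | h'
    · exact Finset.mem_image_of_mem _ ((G.mem_ball _ _ _).2 (by simpa using h𝒮 _ hZ.1))
    · simp [h'] at hZ
  · obtain ⟨x, -, rfl⟩ := Finset.mem_image.1 hZ
    rw [sgl_single]
    exact mul_nonneg (pow_nonneg ha _) (hq x)
  · rw [Finset.sum_image fun x _ y _ h => Finset.singleton_injective h]
    simp only [sgl_single, cov_single, pow_one]

theorem NB.scale {L : ℕ} (hl : 1 ≤ l) (h : G.NB l a b α) (ha : 0 ≤ a) (hb : ∀ Z, 0 ≤ b Z) {w : ℝ} (hw : 0 ≤ w)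
    (hle : ∀ Z, a' ^ G.cov (L * l) Z * b' Z ≤ w * (a ^ G.cov l Z * b Z)) :
    G.NB (L * l) a' b' (((2 * L + 3 : ℕ) : ℝ) ^ 2 * w * α) := by
  intro y 𝒮 h𝒮
  obtain ⟨C, h1, h2⟩ := G.cover y (L * l) l hl
  rw [Nat.mul_div_cancel _ hl] at h1
  refine (h.near' ha hb C (fun _ => w) (fun _ _ => hw) 𝒮 fun Z hZ => ?_).trans ?_
  · obtain ⟨z, hz, h3⟩ := h𝒮 Z hZ
    obtain ⟨c, hc, h4⟩ := h2 z ((G.mem_ball _ _ _).2 h3)
    exact ⟨c, hc, ⟨z, hz, h4⟩, hle Z⟩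
  · rw [Finset.sum_const, nsmul_eq_mul]
    exact mul_le_mul_of_nonneg_right (mul_le_mul_of_nonneg_right (by exact_mod_cast h1) hw) (h.nonneg y)

theorem pow_large {L : ℕ} (hL : 4 ≤ L) (ha : 1 ≤ a) {c : ℝ} (hc1 : 1 ≤ c) (hca : c ≤ a) {Z : Finset X}
    (hc : G.Conn l Z) (hs : ¬ G.Small l Z) : (a * c) ^ G.cov (L * l) Z ≤ c / a * a ^ G.cov l Z := by
  have h1 := G.reblock (Nat.mul_le_mul_right l hL) hc hs
  obtain ⟨n, hn⟩ := Nat.exists_eq_add_of_le' (G.one_le_cov (L * l) hc.1)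
  rw [hn] at h1 ⊢
  calc (a * c) ^ (n + 1) = c / a * (a ^ (n + 2) * c ^ n) := by field_simp; ring
    _ ≤ c / a * (a ^ (n + 2) * a ^ n) := by gcongr
    _ ≤ _ := by
      rw [← pow_add]
      exact mul_le_mul_of_nonneg_left (pow_le_pow_right₀ ha (by omega)) (by positivity)

/-- change of scale for all connected polymers (`cov_small`, `reblock`, `cover`, `NB.near`) -/
theorem NB.reblock {L : ℕ} (hL : 4 ≤ L) (hl : 1 ≤ l) (h : G.NB l a b α) (ha : 1 ≤ a) (hb : ∀ Z, 0 ≤ b Z)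
    (hc : ∀ Z, ¬ G.Conn l Z → b Z = 0) {c : ℝ} (hc1 : 1 ≤ c) (hca : c ≤ a) :
    G.NB (L * l) (a * c) b (((2 * L + 3 : ℕ) : ℝ) ^ 2 * c * α) := by
  refine h.scale hl (by positivity) hb (by positivity) fun Z => ?_
  by_cases h1 : G.Conn l Z
  swap
  · simp [hc Z h1]
  rw [← mul_assoc]
  refine mul_le_mul_of_nonneg_right ?_ (hb Z)
  by_cases h2 : G.Small l Z
  · rw [G.cov_small (Nat.mul_le_mul_right l (by omega : 2 ≤ L)) h2, pow_one, mul_comm]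
    exact mul_le_mul_of_nonneg_left (le_self_pow₀ ha (G.one_le_cov l h1.1 |> Nat.pos_iff_ne_zero.1)) (by positivity)
  · exact (pow_large hL ha hc1 hca h1 h2).trans
      (mul_le_mul_of_nonneg_right (div_le_self (by positivity) ha) (by positivity))

/-- change of scale with gain for the large polymers -/
theorem NB.large {L : ℕ} (hL : 4 ≤ L) (hl : 1 ≤ l) (h : G.NB l a b α) (ha : 1 ≤ a) (hb : ∀ Z, 0 ≤ b Z)
    (hc : ∀ Z, ¬ G.Conn l Z → b Z = 0) {c : ℝ} (hc1 : 1 ≤ c) (hca : c ≤ a) :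
    G.NB (L * l) (a * c) (fun Z => if G.Small l Z then 0 else b Z) (((2 * L + 3 : ℕ) : ℝ) ^ 2 * c / a * α) := by
  rw [mul_div_assoc]
  refine h.scale hl (by positivity) hb (by positivity) fun Z => ?_
  split_ifs with h2
  · exact (mul_zero _).trans_le (mul_nonneg (by positivity) (mul_nonneg (by positivity) (hb Z)))
  by_cases h1 : G.Conn l Z
  · rw [← mul_assoc]
    exact mul_le_mul_of_nonneg_right (pow_large hL ha hc1 hca h1 h2) (hb Z)
  · simp [hc Z h1]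

/-- contraction for the small polymers -/
theorem NB.small {l' : ℕ} (hl : 2 * l ≤ l') (h : G.NB l a b α) (ha : 1 ≤ a) (hb : ∀ Z, 0 ≤ b Z) {κ : X → ℝ} {θ : ℝ}
    (hκ : ∀ x, 0 ≤ κ x) (hs : ∀ y, ∃ (C : Finset X) (kb : X → ℝ), (∀ z ∈ G.ball y l', ∃ c ∈ C, G.d c z ≤ l) ∧
      (∀ c ∈ C, ∀ x ∈ G.ball c (3 * l), κ x ≤ kb c) ∧ ∑ c ∈ C, kb c ≤ θ) :
    G.NB l' a (fun Z => if G.Small l Z then (Z.card : ℝ)⁻¹ * (∑ x ∈ Z, κ x) * b Z else 0) (θ * α) := by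
  intro y 𝒮 h𝒮
  obtain ⟨C, kb, h1, h2, h3⟩ := hs y
  have h4 : ∀ c ∈ C, 0 ≤ kb c := fun c hc =>
    (hκ c).trans (h2 c hc c ((G.mem_ball _ _ _).2 (by rw [G.d_self]; exact Nat.zero_le _)))
  refine (h.near' (by positivity) hb C kb h4 𝒮 fun Z hZ => ?_).trans (mul_le_mul_of_nonneg_right h3 (h.nonneg y))
  obtain ⟨z, hz, h5⟩ := h𝒮 Z hZ
  obtain ⟨c, hc, h6⟩ := h1 z ((G.mem_ball _ _ _).2 h5)
  refine ⟨c, hc, ⟨z, hz, h6⟩, ?_⟩
  dsimp only
  split_ifs with h7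
  swap
  · exact (mul_zero _).trans_le (mul_nonneg (h4 c hc) (mul_nonneg (by positivity) (hb Z)))
  have h8 : (Z.card : ℝ)⁻¹ * ∑ x ∈ Z, κ x ≤ kb c := by
    rw [inv_mul_le_iff₀ (by exact_mod_cast Finset.card_pos.2 h7.1), ← nsmul_eq_mul]
    refine Finset.sum_le_card_nsmul _ _ _ fun x hx => h2 c hc x ((G.mem_ball _ _ _).2 ?_)
    have := G.d_tri c z x
    have := h7.2 z hz x hx
    omega
  rw [G.cov_small hl h7, pow_one, mul_left_comm (kb c)]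
  exact mul_le_mul (le_self_pow₀ ha (G.one_le_cov l h7.1 |> Nat.pos_iff_ne_zero.1))
    (mul_le_mul_of_nonneg_right h8 (hb Z))
    (mul_nonneg (mul_nonneg (by positivity) (Finset.sum_nonneg fun x _ => hκ x)) (hb Z)) (by positivity)

end Geo

end Crest.Agent.R165
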