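import Crest.Agent.R165.P.Alg
import Crest.Agent.Lib.Brouwer.Basic

/-! # R165 block P, Cts: continuity in a parameter, shooting (owner helper58; statements frozen, add lemmas freely) -/

set_option autoImplicit false
set_option linter.unusedSectionVars false
set_option linter.unusedVariables false
noncomputable section
open Classical

namespace Crest.Agent.R165

variable {X : Type} {A : Type} [CommRing A] [Algebra ℝ A] [Algebra ℚ A]

section
variable {P : Type} [TopologicalSpace P] {F F' : P → A}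

theorem PCts.of_fintype {ι : Type} [Fintype ι] (a : ι → A) (c : ι → P → ℝ) (hc : ∀ i, Continuous (c i))
    (h : ∀ p, F p = ∑ i, c i p • a i) : PCts F := by
  exact ⟨_, a ∘ (Fintype.equivFin ι).symm, c ∘ (Fintype.equivFin ι).symm, fun i => hc _, fun p =>
    (h p).trans ((Fintype.equivFin ι).symm.sum_comp fun i => c i p • a i).symm⟩

theorem PCts.const (a : A) : PCts fun _ : P => a := by
  exact .of_fintype (fun _ : Unit => a) (fun _ _ => 1) (fun _ => continuous_const) fun p => by simp

theorem PCts.add (h : PCts F) (h' : PCts F') : PCts fun p => F p + F' p := by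
  obtain ⟨n, a, c, h1, h2⟩ := h
  obtain ⟨n', a', c', h1', h2'⟩ := h'
  exact .of_fintype (Sum.elim a a') (Sum.elim c c') (fun i => by cases i; exacts [h1 _, h1' _]) fun p => by
    simp [h2, h2']

theorem PCts.mul (h : PCts F) (h' : PCts F') : PCts fun p => F p * F' p := by
  obtain ⟨n, a, c, h1, h2⟩ := h
  obtain ⟨n', a', c', h1', h2'⟩ := h'
  exact .of_fintype (fun i : Fin n × Fin n' => a i.1 * a' i.2) (fun i p => c i.1 p * c' i.2 p)
    (fun i => (h1 _).mul (h1' _)) fun p => by
      simp only [h2, h2', Finset.sum_mul_sum, Fintype.sum_prod_type, smul_mul_smul_comm]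

theorem PCts.smul (h : PCts F) {c : P → ℝ} (hc : Continuous c) : PCts fun p => c p • F p := by
  obtain ⟨n, a, c', h1, h2⟩ := h
  exact ⟨n, a, fun i p => c p * c' i p, fun i => hc.mul (h1 i), fun p => by simp only [h2, Finset.smul_sum, smul_smul]⟩

theorem PCts.map (h : PCts F) (T : A →ₗ[ℝ] A) : PCts fun p => T (F p) := by
  obtain ⟨n, a, c, h1, h2⟩ := h
  exact ⟨n, fun i => T (a i), c, h1, fun p => by simp only [h2, map_sum, map_smul]⟩

theorem PCts.sum {ι : Type} (s : Finset ι) {F : ι → P → A} (h : ∀ i ∈ s, PCts (F i)) :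
    PCts fun p => ∑ i ∈ s, F i p := by
  induction s using Finset.induction_on with
  | empty => simpa using PCts.const 0
  | insert i s hi ih =>
    simp only [Finset.sum_insert hi]
    exact (h i (Finset.mem_insert_self _ _)).add (ih fun j hj => h j (Finset.mem_insert_of_mem hj))

theorem PCts.prod {ι : Type} (s : Finset ι) {F : ι → P → A} (h : ∀ i ∈ s, PCts (F i)) :
    PCts fun p => ∏ i ∈ s, F i p := by
  induction s using Finset.induction_on with
  | empty => simpa using PCts.const 1
  | insert i s hi ih =>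
    simp only [Finset.prod_insert hi]
    exact (h i (Finset.mem_insert_self _ _)).mul (ih fun j hj => h j (Finset.mem_insert_of_mem hj))

end

theorem PCts.continuous {P : Type} [TopologicalSpace P] {F : P → A} (h : PCts F) (φ : A →ₗ[ℝ] ℝ) :
    Continuous fun p => φ (F p) := by
  obtain ⟨n, a, c, h1, h2⟩ := h
  simp only [h2, map_sum, map_smul]
  exact continuous_finsetSum _ fun i _ => (h1 i).smul continuous_const

theorem PCts.neg {P : Type} [TopologicalSpace P] {F : P → A} (h : PCts F) : PCts fun p => -F p := h.map (-LinearMap.id)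

theorem PCts.sub {P : Type} [TopologicalSpace P] {F F' : P → A} (h : PCts F) (h' : PCts F') :
    PCts fun p => F p - F' p := by
  simpa only [sub_eq_add_neg] using h.add h'.neg

theorem PCts.ite {P : Type} [TopologicalSpace P] {F : P → A} (c : Prop) [Decidable c] (h : PCts F) :
    PCts fun p => if c then F p else 0 := by
  split_ifs
  exacts [h, .const 0]

/-- The nilpotent parts lie in the ideal spanned by the finitely many nilpotent `a i - e (a i)`, which is nilpotent
(`Ideal.FG.isNilpotent_iff_le_nilradical`), so `IsNilpotent.exp_eq_sum` holds with a uniform number of terms. -/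
theorem PCts.exA {P : Type} [TopologicalSpace P] {F : P → A} (h : PCts F) {e : A →ₐ[ℝ] ℝ}
    (hn : ∀ F, e F = 0 → IsNilpotent F) : PCts fun p => exA e (F p) := by
  have h0 : Continuous fun p => e (F p) := h.continuous e.toLinearMap
  have hN : PCts fun p => F p - algebraMap ℝ A (e (F p)) :=
    h.sub (by simpa only [Algebra.algebraMap_eq_smul_one] using (PCts.const (1 : A)).smul h0)
  obtain ⟨n, a, c, -, h2⟩ := h
  obtain ⟨k, hk⟩ := (Ideal.FG.isNilpotent_iff_le_nilradical (I := Ideal.span (Set.range fun i =>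
    a i - algebraMap ℝ A (e (a i)))) (Submodule.fg_span (Set.finite_range _))).2
      (Ideal.span_le.2 (Set.range_subset_iff.2 fun i => hn _ (by simp)))
  have h3 : ∀ p, (F p - algebraMap ℝ A (e (F p))) ^ k = 0 := fun p => by
    refine (Ideal.mem_bot (R := A)).1 (hk.le (Ideal.pow_mem_pow ?_ k))
    have : F p - algebraMap ℝ A (e (F p)) = ∑ i, algebraMap ℝ A (c i p) * (a i - algebraMap ℝ A (e (a i))) := by
      simp only [h2, map_sum, Algebra.smul_def, map_mul, AlgHom.commutes, mul_sub, Finset.sum_sub_distrib]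
      rfl
    rw [this]
    exact Ideal.sum_mem _ fun i _ => Ideal.mul_mem_left _ _ (Ideal.subset_span ⟨i, rfl⟩)
  simp only [R165.exA, IsNilpotent.exp_eq_sum (h3 _), ← Rat.cast_smul_eq_qsmul ℝ]
  refine PCts.smul (PCts.sum _ fun i _ => PCts.smul ?_ continuous_const) h0.rexp
  simpa using PCts.prod (Finset.range i) fun _ _ => hN

theorem PCts.sgl {P : Type} [TopologicalSpace P] {q : P → X → A} (h : ∀ x, PCts fun p => q p x) (Z : Finset X) :
    PCts fun p => sgl (q p) Z := PCts.sum _ fun x _ => (h x).ite _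

theorem PCts.grp {P : Type} [TopologicalSpace P] (G : Geo X) (r r' : ℕ) {Q K : P → Finset X → A}
    (hQ : ∀ Y, PCts fun p => Q p Y) (hK : ∀ Y, PCts fun p => K p Y) (Z : Finset X) :
    PCts fun p => G.grp r r' (Q p) (K p) Z :=
  (PCts.sum _ fun _ _ => PCts.sum _ fun _ _ => ((PCts.prod _ fun Y _ => hQ Y).mul (PCts.prod _ fun Y _ => hK Y)).ite _).ite _

theorem next_pcts {P : Type} [TopologicalSpace P] (G : Geo X) {e : A →ₐ[ℝ] ℝ}
    (hn : ∀ F, e F = 0 → IsNilpotent F) (S : Sp X A) {s : P → St X A} (hs : St.PCts s) :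
    St.PCts (fun p => S.next G e (s p)) ∧ ∀ x, PCts fun p => S.w G (s p) x := by
  have hWx : ∀ x Y, PCts fun p => S.Wx (s p) x Y := fun x Y =>
    ((((hs.K Y).add (PCts.sgl hs.q Y)).map S.mu).map (S.loc x)).smul continuous_const
  have hw : ∀ x, PCts fun p => S.w G (s p) x := fun x => PCts.sum _ fun Y _ => (hWx x Y).ite _
  have hM : ∀ Z, PCts fun p => S.Mnext G e (s p) Z := fun Z =>
    (PCts.grp G _ _ (PCts.sgl fun x => ((hs.qm x).exA hn).sub (.const 1)) hs.M Z).map S.mu
  exact ⟨⟨fun x => ((hw x).sub ((hw x).map S.cst)).sub ((hw x).map (S.mv x)), fun x => (hw x).map (S.mv x), hM,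
    fun Z => (PCts.grp G _ _ (fun Y => (((PCts.sum _ fun x _ => hWx x Y).ite _).neg.exA hn).sub (.const 1))
      (fun Y => (PCts.grp G _ _ (PCts.sgl fun x => (((hs.q x).add (hs.qm x)).exA hn).sub (.const 1))
        (fun Y => (hs.M Y).add (hs.K Y)) Y).map S.mu) Z).sub (hM Z)⟩, hw⟩

/-- **shooting lemma** (2D Brouwer; use `Lib/Brouwer`). `f n p` is the increment at step `n` of the clamped flow started
at `p`; it is bounded by `ρ θ^n` whatever `p`. The two couplings expand by `Lν, Lz ≥ 1`... in unscaled form: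
`u (n+1) = u n + f n p`, and we want `u n → 0` with the tail bound. -/
theorem shooting (f : ℕ → ℝ × ℝ → ℝ × ℝ) (hf : ∀ n, Continuous (f n)) (b₁ b₂ : ℕ → ℝ)
    (h₁ : ∀ n p, |(f n p).1| ≤ b₁ n) (h₂ : ∀ n p, |(f n p).2| ≤ b₂ n) (s₁ : Summable b₁) (s₂ : Summable b₂) :
    ∃ p : ℝ × ℝ, p.1 = -∑' n, (f n p).1 ∧ p.2 = -∑' n, (f n p).2 := by
  have k : ∀ {g : ℕ → ℝ × ℝ → ℝ} {b : ℕ → ℝ}, (∀ n p, |g n p| ≤ b n) → Summable b → ∀ p,
      -∑' n, g n p ∈ Set.Icc (-∑' n, b n) (∑' n, b n) := fun {g b} h s p =>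
    abs_le.1 ((abs_neg _).trans_le (tsum_of_norm_bounded (f := fun n => g n p) s.hasSum fun n => h n p))
  obtain ⟨p, -, hp⟩ := Lib.Brouwer.exists_fixedPoint_of_isCompact_convex (isCompact_Icc.prod isCompact_Icc)
    ((convex_Icc _ _).prod (convex_Icc _ _)) ⟨(_, _), Set.mk_mem_prod (k h₁ s₁ 0) (k h₂ s₂ 0)⟩
    (fun p => (-∑' n, (f n p).1, -∑' n, (f n p).2))
    ((continuous_tsum (fun n => (hf n).fst) s₁ h₁).neg.prodMk (continuous_tsum (fun n => (hf n).snd) s₂ h₂).neg).continuousOn
    fun p _ => ⟨k h₁ s₁ p, k h₂ s₂ p⟩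
  exact ⟨p, (congrArg Prod.fst hp).symm, (congrArg Prod.snd hp).symm⟩

end Crest.Agent.R165
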