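import Crest.Agent.R165.P.Exact

/-! # R165 block P, Rel: locality and equivariance (owner helper58; statements frozen, add lemmas freely) -/

set_option autoImplicit false
set_option linter.unusedSectionVars false
set_option linter.unusedVariables false
noncomputable section
open Classical

namespace Crest.Agent.R165

variable {X : Type} {A : Type} [CommRing A] [Algebra ℝ A] [Algebra ℚ A]

/-- Transport of `grp` (`Finset.sum_bij`/`sum_image` along `Y ↦ Y.image φ`, injective on the subsets of `Z`; `Conn`, `Sep`, `fams`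
are preserved since `d ≤ t ↔ d' ≤ t` for `t ≤ ρ`). -/
theorem grp_rel {X' B B' : Type} [CommRing B] [CommRing B'] (G : Geo X) (G' : Geo X') (φ : X → X') (Φ : B →+* B')
    {Z : Finset X} {ρ r r' : ℕ} (hr : r ≤ ρ) (hr' : r' ≤ ρ) (hinj : Set.InjOn φ Z)
    (hd : ∀ x ∈ Z, ∀ y ∈ Z, G'.d (φ x) (φ y) = G.d x y ∨ (ρ < G'.d (φ x) (φ y) ∧ ρ < G.d x y))
    {P K : Finset X → B} {P' K' : Finset X' → B'} (hP : ∀ Y ⊆ Z, P' (Y.image φ) = Φ (P Y))
    (hK : ∀ Y ⊆ Z, K' (Y.image φ) = Φ (K Y)) : G'.grp r r' P' K' (Z.image φ) = Φ (G.grp r r' P K Z) := by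
  have hle : ∀ t ≤ ρ, ∀ x ∈ Z, ∀ y ∈ Z, G'.d (φ x) (φ y) ≤ t ↔ G.d x y ≤ t := fun t ht x hx y hy => by
    have := hd x hx y hy
    omega
  have i1 := Finset.image_injOn_powerset_of_injOn hinj
  have i2 := Finset.image_injOn_powerset_of_injOn i1
  have i3 : ∀ {𝒮 : Finset (Finset X)}, (∀ Y ∈ 𝒮, Y ⊆ Z) → Set.InjOn (fun Y : Finset X => Y.image φ) 𝒮 := fun h =>
    i1.mono fun Y hY => Finset.mem_coe.2 (Finset.mem_powerset.2 (h Y hY))
  have hc : G'.Conn r' (Z.image φ) ↔ G.Conn r' Z := by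
    refine and_congr Finset.image_nonempty ⟨fun h x hx y hy => ?_, fun h x hx y hy => ?_⟩
    · have := h _ (Finset.mem_image_of_mem φ hx) _ (Finset.mem_image_of_mem φ hy)
      generalize hb : φ y = b at this
      induction this generalizing y with
      | refl => rw [hinj hy hx hb]
      | tail _ h2 ih =>
        obtain ⟨u, hu, rfl⟩ := Finset.mem_image.1 h2.1
        exact (ih u hu rfl).tail ⟨hu, hy, (hle _ hr' u hu y hy).1 (hb ▸ h2.2.2)⟩
    · obtain ⟨x, hx', rfl⟩ := Finset.mem_image.1 hx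
      obtain ⟨y, hy', rfl⟩ := Finset.mem_image.1 hy
      exact Relation.ReflTransGen.lift φ (fun a b hab => ⟨Finset.mem_image_of_mem φ hab.1,
        Finset.mem_image_of_mem φ hab.2.1, (hle _ hr' a hab.1 b hab.2.1).2 hab.2.2⟩) _ _ (h x hx' y hy')
  have e1 : (Z.image φ).powerset.powerset = Z.powerset.powerset.image fun 𝒮 => 𝒮.image fun Y => Y.image φ := by
    rw [Finset.powerset_image, Finset.powerset_image]
  have hf : ∀ 𝒳 : Finset (Finset X), (∀ Y ∈ 𝒳, Y ⊆ Z) →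
      ((𝒳.image fun Y => Y.image φ) ∈ G'.fams r (Z.image φ) ↔ 𝒳 ∈ G.fams r Z) := fun 𝒳 h => by
    simp only [Geo.mem_fams, Finset.forall_mem_image, Finset.image_nonempty, Geo.Sep]
    refine and_congr (iff_of_true (fun Y hY => Finset.image_subset_image (h Y hY)) h) (and_congr Iff.rfl
      (forall₂_congr fun Y hY => forall₂_congr fun W hW => imp_congr ((i3 h).eq_iff hY hW).not
        (forall₂_congr fun a ha => forall₂_congr fun b hb => ?_)))
    rw [← not_le, ← not_le, hle _ hr a (h Y hY ha) b (h W hW hb)]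
  have e2 : G'.fams r (Z.image φ) = (G.fams r Z).image fun 𝒮 => 𝒮.image fun Y => Y.image φ := by
    ext 𝒳
    refine ⟨fun h => ?_, fun h => ?_⟩
    · obtain ⟨𝒴, h1, rfl⟩ := Finset.mem_image.1 (e1 ▸ mem_pp.2 (Geo.mem_fams.1 h).1)
      exact Finset.mem_image_of_mem _ ((hf 𝒴 (mem_pp.1 h1)).1 h)
    · obtain ⟨𝒴, h1, rfl⟩ := Finset.mem_image.1 h
      exact (hf 𝒴 (Geo.mem_fams.1 h1).1).2 h1
  rw [Geo.grp, Geo.grp, hc]
  split_ifs
  swap
  · exact (map_zero Φ).symm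
  rw [e1, e2, Finset.sum_image i2, map_sum]
  refine Finset.sum_congr rfl fun 𝒮 h𝒮 => ?_
  rw [Finset.sum_image (i2.mono fun 𝒳 h => Finset.mem_coe.2 (mem_pp.2 (Geo.mem_fams.1 h).1)), map_sum]
  refine Finset.sum_congr rfl fun 𝒳 h𝒳 => ?_
  have h1 := mem_pp.1 h𝒮
  have h2 := (Geo.mem_fams.1 h𝒳).1
  have e3 : ((𝒮.image fun Y => Y.image φ) ∪ 𝒳.image fun Y => Y.image φ).biUnion id = ((𝒮 ∪ 𝒳).biUnion id).image φ := by
    rw [← Finset.image_union, Finset.image_biUnion, Finset.biUnion_image]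
    rfl
  rw [e3, apply_ite Φ, map_zero, map_mul, map_prod, map_prod, Finset.prod_image (i3 h1), Finset.prod_image (i3 h2),
    Finset.prod_congr rfl fun Y hY => hP Y (h1 Y hY), Finset.prod_congr rfl fun Y hY => hK Y (h2 Y hY)]
  exact if_congr (i1.eq_iff (Finset.mem_coe.2 (Finset.mem_powerset.2 (Finset.biUnion_subset.2 fun Y hY =>
    (Finset.mem_union.1 hY).elim (h1 Y) (h2 Y)))) (Finset.mem_coe.2 (Finset.mem_powerset_self Z))) rfl rfl

/-- **locality + equivariance**: `grp_rel`, `map_exA`, `grp_mem`, `next_lcl`; `W' ⊆ W` since `x ∈ ball x _`. -/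
theorem next_rel {X' A' : Type} [CommRing A'] [Algebra ℝ A'] [Algebra ℚ A'] (G : Geo X) (G' : Geo X')
    {e : A →ₐ[ℝ] ℝ} {e' : A' →ₐ[ℝ] ℝ} (hn : ∀ F, e F = 0 → IsNilpotent F)
    {Lc : Finset X → Subalgebra ℝ A} {S : Sp X A} {S' : Sp X' A'} (hS : S.Alg G Lc)
    (φ : X → X') (Φ : A →ₐ[ℝ] A') (W : Set X) (hl : S'.l = S.l) (hl' : S'.l' = S.l')
    (he : ∀ F, e' (Φ F) = e F) (hinj : Set.InjOn φ W)
    (hd : ∀ x ∈ W, ∀ y ∈ W, G'.d (φ x) (φ y) = G.d x y ∨ (S.l' < G'.d (φ x) (φ y) ∧ S.l' < G.d x y))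
    (hmu : ∀ (Z : Finset X) F, ↑Z ⊆ W → F ∈ Lc Z → S'.mu (Φ F) = Φ (S.mu F))
    (hloc : ∀ (Z : Finset X) x F, ↑Z ⊆ W → G.Small S.l Z → x ∈ Z → F ∈ Lc Z →
      S'.loc (φ x) (Φ F) = Φ (S.loc x F))
    (hcst : ∀ x ∈ W, ∀ F ∈ Lc {x}, S'.cst (Φ F) = Φ (S.cst F) ∧ S'.mv (φ x) (Φ F) = Φ (S.mv x F))
    {s : St X A} {s' : St X' A'} (hs : s.Lcl G Lc S.l) (hr : s.Rel φ Φ W s') (W' : Set X)
    (hW' : ∀ x ∈ W', ↑(G.ball x (2 * S.l)) ⊆ W ∧ G'.ball (φ x) (2 * S.l) = (G.ball x (2 * S.l)).image φ) :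
    (S.next G e s).Rel φ Φ W' (S'.next G' e' s') ∧ ∀ x ∈ W', S'.w G' s' (φ x) = Φ (S.w G s x) := by
  have hW : W' ⊆ W := fun x hx => (hW' x hx).1 ((G.mem_ball _ _ _).2 (by rw [G.d_self]; exact Nat.zero_le _))
  have hsg : ∀ {q : X → A} {q' : X' → A'}, (∀ x ∈ W, q' (φ x) = Φ (q x)) → ∀ Y : Finset X, ↑Y ⊆ W →
      sgl q' (Y.image φ) = Φ (sgl q Y) := fun {q q'} h Y hY => by
    by_cases h1 : ∃ x, Y = {x}
    · obtain ⟨x, rfl⟩ := h1
      rw [Finset.image_singleton, sgl_single, sgl_single, h x (hY (by simp))]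
    · rw [(sgl_cases Y).resolve_left h1, map_zero, (sgl_cases _).resolve_left fun h2 => h1 ?_]
      rwa [← Finset.card_eq_one, Finset.card_image_of_injOn (hinj.mono hY), Finset.card_eq_one] at h2
  have hg : ∀ {r : ℕ}, r ≤ S.l' → ∀ {P K : Finset X → A} {P' K' : Finset X' → A'},
      (∀ Y : Finset X, ↑Y ⊆ W → P' (Y.image φ) = Φ (P Y)) → (∀ Y : Finset X, ↑Y ⊆ W → K' (Y.image φ) = Φ (K Y)) →
      ∀ Z : Finset X, ↑Z ⊆ W → G'.grp r S.l' P' K' (Z.image φ) = Φ (G.grp r S.l' P K Z) := fun h1 _ _ _ _ hP hK Z hZ =>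
    grp_rel G G' φ Φ.toRingHom h1 le_rfl (hinj.mono hZ) (fun x hx y hy => hd x (hZ hx) y (hZ hy))
      (fun Y hY => hP Y ((Finset.coe_subset.2 hY).trans hZ)) fun Y hY => hK Y ((Finset.coe_subset.2 hY).trans hZ)
  have hsm : ∀ Y : Finset X, ↑Y ⊆ W → (G'.Small S.l (Y.image φ) ↔ G.Small S.l Y) := fun Y hY => by
    simp only [Geo.Small, Finset.image_nonempty, Finset.forall_mem_image]
    refine and_congr Iff.rfl (forall₂_congr fun a ha => forall₂_congr fun b hb => ?_)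
    have := hd a (hY ha) b (hY hb)
    have := hS.two
    omega
  have hWx : ∀ Y : Finset X, ↑Y ⊆ W → G.Small S.l Y → ∀ x ∈ Y, S'.Wx s' (φ x) (Y.image φ) = Φ (S.Wx s x Y) :=
    fun Y hY h x hx => by
      have h1 := add_mem (hs.K Y) (sgl_mem hs.q Y)
      rw [Sp.Wx, Sp.Wx, Finset.card_image_of_injOn (hinj.mono hY), hr.K Y hY, hsg hr.q Y hY, ← map_add Φ,
        hmu Y _ hY h1, hloc Y x _ hY h hx (hS.mu_mem h1), map_smul]
  have hWY : ∀ Y : Finset X, ↑Y ⊆ W → S'.W G' s' (Y.image φ) = Φ (S.W G s Y) := fun Y hY => by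
    rw [Sp.W, Sp.W, hl, hsm Y hY]
    split_ifs with h
    · rw [Finset.sum_image (hinj.mono hY), map_sum, Finset.sum_congr rfl (hWx Y hY h)]
    · exact (map_zero Φ).symm
  have hw : ∀ x ∈ W', S'.w G' s' (φ x) = Φ (S.w G s x) := fun x hx => by
    obtain ⟨h1, h2⟩ := hW' x hx
    rw [Sp.w, Sp.w, hl, h2, Finset.powerset_image,
      Finset.sum_image (Finset.image_injOn_powerset_of_injOn (hinj.mono h1)), map_sum]
    refine Finset.sum_congr rfl fun Y hY => ?_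
    have h3 : ↑Y ⊆ W := (Finset.coe_subset.2 (Finset.mem_powerset.1 hY)).trans h1
    have h4 : φ x ∈ Y.image φ ↔ x ∈ Y := by
      rw [← Finset.mem_coe, Finset.coe_image, hinj.mem_image_iff h3 (hW hx), Finset.mem_coe]
    rw [apply_ite Φ, map_zero]
    exact if_ctx_congr (and_congr (hsm Y h3) h4) (fun h => hWx Y h3 h.1 x h.2) fun _ => rfl
  have hM : ∀ Z : Finset X, ↑Z ⊆ W → S'.Mnext G' e' s' (Z.image φ) = Φ (S.Mnext G e s Z) := fun Z hZ => by
    rw [Sp.Mnext, Sp.Mnext, hl, hl', hg hS.le (hsg fun x hx => ?_) hr.M Z hZ,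
      hmu Z _ hZ (hS.grp_mem _ _ (sgl_exA_mem e hs.qm) hs.M Z)]
    rw [hr.qm x hx, map_exA hn Φ he, map_sub, map_one]
  have hH : ∀ Z : Finset X, ↑Z ⊆ W → S'.Khat G' e' s' (Z.image φ) = Φ (S.Khat G e s Z) := fun Z hZ => by
    rw [Sp.Khat, Sp.Khat, hl, hl', hg hS.le (hsg fun x hx => ?_) (fun Y hY => ?_) Z hZ,
      hmu Z _ hZ (hS.grp_mem _ _ (sgl_exA_mem e fun x => add_mem (hs.q x) (hs.qm x))
        (fun Y => add_mem (hs.M Y) (hs.K Y)) Z)]
    · rw [hr.qm x hx, hr.q x hx, ← map_add, map_exA hn Φ he, map_sub, map_one]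
    · rw [hr.M Y hY, hr.K Y hY, map_add]
  refine ⟨⟨fun x hx => ?_, fun x hx => ?_, fun Z hZ => hM Z (hZ.trans hW), fun Z hZ => ?_⟩, hw⟩
  · simp only [Sp.next, hw x hx, hcst x (hW hx) _ (hS.w_mem s x), map_sub]
  · simp only [Sp.next, hw x hx, hcst x (hW hx) _ (hS.w_mem s x)]
  · simp only [Sp.next]
    rw [hM Z (hZ.trans hW), hl', hg le_rfl (fun Y hY => ?_) hH Z (hZ.trans hW), ← map_sub]
    rw [hWY Y hY, ← map_neg, map_exA hn Φ he, map_sub, map_one]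

end Crest.Agent.R165
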