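import Crest.Agent.R165.P.Cov

/-! # R165 block P, Small: sums over small polymers, the final step (owner helper58; statements frozen, add lemmas freely) -/

set_option autoImplicit false
set_option linter.unusedSectionVars false
set_option linter.unusedVariables false
noncomputable section
open Classical

namespace Crest.Agent.R165

variable {X : Type} {A : Type} [CommRing A] [Algebra ℝ A] [Algebra ℚ A]

/-- swap the sums: at most `|Y|` base points `x` for each `Y` -/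
theorem Geo.NB.small_sum {G : Geo X} {l : ℕ} {a α : ℝ} {b : Finset X → ℝ} (h : G.NB l a b α) (ha : 1 ≤ a)
    (hb : ∀ Z, 0 ≤ b Z) (y : X) : ∑ x ∈ G.ball y l, ∑ Y ∈ (G.ball x (2 * l)).powerset,
      (if G.Small l Y ∧ x ∈ Y then ((Y.card : ℝ)⁻¹) * b Y else 0) ≤ α := by
  set 𝒮 := ((G.ball y l).biUnion fun x => (G.ball x (2 * l)).powerset).filter fun Y => ∃ z ∈ Y, G.d y z ≤ l
  have h0 : ∀ x Y, 0 ≤ if x ∈ Y then ((Y.card : ℝ)⁻¹) * b Y else 0 := fun x Y => by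
    split_ifs
    exacts [mul_nonneg (by positivity) (hb Y), le_rfl]
  calc _ ≤ ∑ x ∈ G.ball y l, ∑ Y ∈ 𝒮, if x ∈ Y then ((Y.card : ℝ)⁻¹) * b Y else 0 := by
        refine Finset.sum_le_sum fun x hx => ?_
        rw [← Finset.sum_filter, ← Finset.sum_filter]
        refine Finset.sum_le_sum_of_subset_of_nonneg (fun Y hY => ?_) fun Y _ _ => mul_nonneg (by positivity) (hb Y)
        rw [Finset.mem_filter] at hY
        exact Finset.mem_filter.2 ⟨Finset.mem_filter.2 ⟨Finset.mem_biUnion.2 ⟨x, hx, hY.1⟩, x, hY.2.2,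
          (G.mem_ball _ _ _).1 hx⟩, hY.2.2⟩
    _ ≤ ∑ Y ∈ 𝒮, a ^ G.cov l Y * b Y := by
        rw [Finset.sum_comm]
        refine Finset.sum_le_sum fun Y _ => ?_
        rw [Finset.sum_ite_mem, Finset.sum_const, nsmul_eq_mul, ← mul_assoc]
        refine mul_le_mul_of_nonneg_right (le_trans ?_ (one_le_pow₀ ha)) (hb Y)
        exact mul_inv_le_one_of_le₀ (by exact_mod_cast Finset.card_le_card Finset.inter_subset_right) (by positivity)
    _ ≤ α := h y _ fun Y hY => (Finset.mem_filter.1 hY).2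

/-- sums of local functionals over the small polymers through the points of a ball -/
theorem sum_small_le (G : Geo X) {Bd : Finset X → A → ℝ → Prop} {l : ℕ} {a α β : ℝ} (ha : 1 ≤ a) (hβ : 0 ≤ β)
    {K : Finset X → A} (hK : G.PN Bd l a K α) (φ : X → Finset X → ℝ)
    (hφ : ∀ Z x c, G.Small l Z → x ∈ Z → Bd Z (K Z) c → |φ x Z| ≤ β * c) (y : X) :
    ∑ x ∈ G.ball y l, ∑ Y ∈ (G.ball x (2 * l)).powerset,
      (if G.Small l Y ∧ x ∈ Y then ((Y.card : ℝ)⁻¹) * |φ x Y| else 0) ≤ β * α := by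
  obtain ⟨b, h1, h2⟩ := hK
  refine le_trans (Finset.sum_le_sum fun x _ => Finset.sum_le_sum fun Y _ => ?_)
    ((Geo.NB.smul h2 hβ).small_sum ha (fun Z => mul_nonneg hβ (h1 Z).1) y)
  split_ifs with h
  exacts [mul_le_mul_of_nonneg_left (hφ Y x _ h.1 h.2 (h1 Y).2) (by positivity), le_rfl]

/-- the same for the gauge at one site: everything extracted at `x` is bounded by `β α` -/
theorem bd_small_sum (G : Geo X) {e : A →ₐ[ℝ] ℝ} {Bd Bd' : Finset X → A → ℝ → Prop} (hB : BdAx Bd' e)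
    {l : ℕ} {a α β : ℝ} (ha : 1 ≤ a) (hβ : 0 ≤ β) {K : Finset X → A} (hK : G.PN Bd l a K α)
    (φ : X → Finset X → A) (hφ : ∀ Z x c, G.Small l Z → x ∈ Z → Bd Z (K Z) c → Bd' {x} (φ x Z) (β * c)) :
    G.SN Bd' l (fun x => ∑ Y ∈ (G.ball x (2 * l)).powerset,
      if G.Small l Y ∧ x ∈ Y then ((Y.card : ℝ)⁻¹) • φ x Y else 0) (β * α) := by
  obtain ⟨b, h1, h2⟩ := hK
  have h3 : ∀ x, Bd' {x} (∑ Y ∈ (G.ball x (2 * l)).powerset, if G.Small l Y ∧ x ∈ Y then ((Y.card : ℝ)⁻¹) • φ x Y else 0)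
      (∑ Y ∈ (G.ball x (2 * l)).powerset, if G.Small l Y ∧ x ∈ Y then ((Y.card : ℝ)⁻¹) * (β * b Y) else 0) :=
    fun x => hB.sum _ fun Y _ => by
      split_ifs with h
      · simpa using hB.smul (Y.card : ℝ)⁻¹ (hφ Y x _ h.1 h.2 (h1 Y).2)
      · exact hB.zero _
  exact ⟨_, fun x => ⟨hB.nonneg (h3 x), h3 x⟩,
    (Geo.NB.smul h2 hβ).small_sum ha fun Z => mul_nonneg hβ (h1 Z).1⟩

theorem sm_prod {ι : Type} (s : Finset ι) {m k : ι → ℝ} (hm : ∀ i, 0 ≤ m i) (hk : ∀ i, 0 ≤ k i) :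
    ∏ i ∈ s, (1 + m i) ≤ Real.exp (∑ i ∈ s, m i) ∧ ∏ i ∈ s, (1 + (m i + k i)) - ∏ i ∈ s, (1 + m i) ≤
      Real.exp (∑ i ∈ s, m i) * (Real.exp (∑ i ∈ s, k i) - 1) := by
  have h1 : ∀ f : ι → ℝ, (∀ i, 0 ≤ f i) → ∏ i ∈ s, (1 + f i) ≤ Real.exp (∑ i ∈ s, f i) := fun f hf => by
    rw [Real.exp_sum]
    exact Finset.prod_le_prod (fun i _ => by linarith [hf i]) fun i _ => by linarith [Real.add_one_le_exp (f i)]
  have h2 : ∏ i ∈ s, (1 + (m i + k i)) ≤ (∏ i ∈ s, (1 + m i)) * ∏ i ∈ s, (1 + k i) := by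
    rw [← Finset.prod_mul_distrib]
    exact Finset.prod_le_prod (fun i _ => by linarith [hm i, hk i]) fun i _ => by nlinarith [hm i, hk i]
  have h3 : 0 ≤ ∏ i ∈ s, (1 + m i) := Finset.prod_nonneg fun i _ => by linarith [hm i]
  have h4 := Real.one_le_exp (Finset.sum_nonneg fun i (_ : i ∈ s) => hk i)
  exact ⟨h1 m hm, by nlinarith [mul_le_mul_of_nonneg_left (h1 k hk) h3,
    mul_le_mul_of_nonneg_right (h1 m hm) (sub_nonneg.2 h4)]⟩

theorem sm_fams (G : Geo X) (l : ℕ) (Λ : Finset X) : G.fams l Λ ⊆ (Λ.powerset.filter Finset.Nonempty).powerset :=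
  fun 𝒳 h => Finset.mem_powerset.2 fun Y hY => Finset.mem_filter.2
    ⟨Finset.mem_powerset.2 ((Geo.mem_fams.1 h).1 Y hY), (Geo.mem_fams.1 h).2.1 Y hY⟩

/-- **final step** (`[Nonempty X]` added: false for empty `X`, `α < 0`).  `Z - Xi M = (exA - 1) Xi (M + K) + (Xi (M + K) - Xi M)`;
`BdAx.prod_sub` for each family, `Σ_𝒳 (∏(m+k) - ∏ m) ≤ ∏_Y (1+m+k) - ∏_Y (1+m)` over the non-empty `Y ⊆ Λ` (`Finset.prod_one_add`),
`≤ e^{Σ m} (e^{Σ k} - 1)`; `NB.near` with the cover of `Λ`. -/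
theorem final_bound [Nonempty X] (G : Geo X) {e : A →ₐ[ℝ] ℝ} {Bd : Finset X → A → ℝ → Prop} (hB : BdAx Bd e)
    {l : ℕ} {a α εM : ℝ} (ha : 1 ≤ a) {s : St X A} {Λ : Finset X} {N : ℕ} (hN : G.cov l Λ ≤ N)
    (hK : G.PN Bd l a s.K α) (hM : G.PN Bd l a s.M εM) (hq : G.SN Bd l s.q α) (hqm : G.SN Bd l s.qm α) :
    Bd Λ (s.Z G e l Λ - G.Xi l s.M Λ) (Real.exp (N * εM) * (Real.exp (7 * N * α) - 1)) := by
  obtain ⟨k, k1, k2⟩ := hK
  obtain ⟨m, m1, m2⟩ := hM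
  obtain ⟨C, hC, hc⟩ := G.cov_spec l Λ
  obtain ⟨y₀⟩ := ‹Nonempty X›
  have hα := Geo.NB.nonneg k2 y₀
  have hε := Geo.NB.nonneg m2 y₀
  have hCN : (C.card : ℝ) ≤ N := by exact_mod_cast hC.trans_le hN
  have hP : ∀ {b : Finset X → ℝ} {γ : ℝ}, G.NB l a b γ → (∀ Z, 0 ≤ b Z) →
      ∑ Y ∈ Λ.powerset.filter Finset.Nonempty, b Y ≤ N * γ := fun h h0 =>
    ((Finset.sum_le_sum fun Y _ => le_mul_of_one_le_left (h0 Y) (one_le_pow₀ ha)).trans
      (h.near (by positivity) h0 C _ fun Y hY => by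
        obtain ⟨h1, z, hz⟩ := Finset.mem_filter.1 hY
        obtain ⟨c, h2, h3⟩ := hc z (Finset.mem_powerset.1 h1 hz)
        exact ⟨c, h2, z, hz, h3⟩)).trans (mul_le_mul_of_nonneg_right hCN (h.nonneg y₀))
  have hS : ∀ {q : X → A}, G.SN Bd l q α → Bd Λ (∑ x ∈ Λ, q x) (N * α) := fun ⟨b, h1, h2⟩ => by
    refine hB.mono (hB.sum Λ fun x hx => hB.mono (h1 x).2 (Finset.singleton_subset_iff.2 hx) le_rfl) subset_rfl
      (le_trans ?_ (mul_le_mul_of_nonneg_right hCN hα))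
    have h0 : ∀ c x, 0 ≤ if x ∈ G.ball c l then b x else 0 := fun c x => by
      split_ifs
      exacts [(h1 x).1, le_rfl]
    calc _ ≤ ∑ x ∈ Λ, ∑ c ∈ C, if x ∈ G.ball c l then b x else 0 := Finset.sum_le_sum fun x hx => by
          obtain ⟨c, h3, h4⟩ := hc x hx
          exact (if_pos ((G.mem_ball _ _ _).2 h4)).ge.trans (Finset.single_le_sum (fun c _ => h0 c x) h3)
      _ ≤ _ := by
          rw [Finset.sum_comm, ← nsmul_eq_mul]
          refine Finset.sum_le_card_nsmul _ _ _ fun c _ => le_trans ?_ (h2 c)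
          rw [Finset.sum_ite_mem]
          exact Finset.sum_le_sum_of_subset_of_nonneg Finset.inter_subset_right fun x _ _ => (h1 x).1
  have h1 := hB.exA (hB.add (hS hq) (hS hqm))
  obtain ⟨p1, p2⟩ := sm_prod (Λ.powerset.filter Finset.Nonempty) (fun Y => (m1 Y).1) fun Y => (k1 Y).1
  have em := Real.exp_le_exp.2 (hP m2 fun Y => (m1 Y).1)
  have ek := Real.exp_le_exp.2 (hP k2 fun Y => (k1 Y).1)
  have ek1 := Real.one_le_exp (mul_nonneg (Nat.cast_nonneg N) hα)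
  replace p1 := p1.trans em
  replace p2 := p2.trans (mul_le_mul em (sub_le_sub_right ek 1)
    (sub_nonneg.2 (Real.one_le_exp (Finset.sum_nonneg fun Y _ => (k1 Y).1))) (Real.exp_pos _).le)
  have bM : ∀ 𝒳 ∈ G.fams l Λ, ∀ Y ∈ 𝒳, Bd Λ (s.M Y) (m Y) := fun 𝒳 h Y hY =>
    hB.mono (m1 Y).2 ((Geo.mem_fams.1 h).1 Y hY) le_rfl
  have bK : ∀ 𝒳 ∈ G.fams l Λ, ∀ Y ∈ 𝒳, Bd Λ (s.K Y) (k Y) := fun 𝒳 h Y hY =>
    hB.mono (k1 Y).2 ((Geo.mem_fams.1 h).1 Y hY) le_rfl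
  simp only [Finset.prod_one_add, ← Finset.sum_sub_distrib] at p1 p2
  have h2 := hB.mono (hB.sum _ fun 𝒳 h => hB.prod _ (bM 𝒳 h)) subset_rfl
    ((Finset.sum_le_sum_of_subset_of_nonneg (sm_fams G l Λ) fun 𝒳 _ _ => Finset.prod_nonneg fun Y _ => (m1 Y).1).trans p1)
  have h3 := hB.mono (hB.sum _ fun 𝒳 h => hB.prod_sub _ (bM 𝒳 h) (bK 𝒳 h)) subset_rfl
    ((Finset.sum_le_sum_of_subset_of_nonneg (sm_fams G l Λ) fun 𝒳 _ _ => sub_nonneg.2
      (Finset.prod_le_prod (fun Y _ => (m1 Y).1) fun Y _ => le_add_of_nonneg_right (k1 Y).1)).trans p2)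
  convert hB.add (hB.mul h1 (hB.add h3 h2)) h3 using 1
  · simp only [St.Z, Geo.Xi, Finset.sum_sub_distrib, Finset.sum_add_distrib]
    ring
  · rw [show 7 * N * α = 3 * (N * α + N * α) + N * α by ring, Real.exp_add]
    ring

end Crest.Agent.R165
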