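import Crest.Agent.R165.P.Cov

/-! # R165 block P, Tree: tree lemma and grouping bounds (owner helper58; statements frozen, add lemmas freely) -/

set_option autoImplicit false
set_option linter.unusedSectionVars false
set_option linter.unusedVariables false
noncomputable section
open Classical

namespace Crest.Agent.R165

variable {X : Type} {A : Type} [CommRing A] [Algebra ℝ A] [Algebra ℚ A]

/-- elements of `F` connected to the root through `F` -/
inductive Rooted {ι : Type} (R : ι → ι → Prop) (root : ι → Prop) (F : Finset ι) : ι → Prop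
  | base {q : ι} : q ∈ F → root q → Rooted R root F q
  | step {u v : ι} : Rooted R root F u → v ∈ F → R u v → Rooted R root F v

theorem Rooted.mem {ι : Type} {R : ι → ι → Prop} {root : ι → Prop} {F : Finset ι} {q : ι} (h : Rooted R root F q) :
    q ∈ F := by
  cases h <;> assumption

theorem Rooted.erase {ι : Type} {R : ι → ι → Prop} {root : ι → Prop} {F : Finset ι} {q₀ q : ι}
    (h : Rooted R root (insert q₀ F) q) : q = q₀ ∨ Rooted R (fun q => root q ∨ R q₀ q) F q := by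
  induction h with
  | base h1 h2 => exact (Finset.mem_insert.1 h1).imp_right fun h1 => .base h1 (.inl h2)
  | step _ h1 h2 ih =>
    refine (Finset.mem_insert.1 h1).imp_right fun h3 => ?_
    rcases ih with rfl | ih
    exacts [.base h3 (.inr h2), .step ih h3 h2]

/-- **tree lemma** -/
theorem tree {ι : Type} (R : ι → ι → Prop) (a b : ι → ℝ) (ha : ∀ q, 0 ≤ a q) (I : Finset ι)
    (h : ∀ p ∈ I, ∑ q ∈ I with R p q, a q * Real.exp (b q) ≤ b p) (root : ι → Prop) :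
    ∑ F ∈ I.powerset with (∀ q ∈ F, Rooted R root F q), ∏ q ∈ F, a q ≤
      Real.exp (∑ q ∈ I with root q, a q * Real.exp (b q)) := by
  have hw : ∀ q, 0 ≤ a q * Real.exp (b q) := fun q => mul_nonneg (ha q) (Real.exp_pos _).le
  induction I using Finset.strongInduction generalizing root with
  | H I ih =>
    by_cases h0 : ∃ q₀ ∈ I, root q₀
    swap
    · rw [Finset.sum_eq_single_of_mem ∅ (by simp) fun F hF hne => ?_, Finset.prod_empty]
      · exact Real.one_le_exp (Finset.sum_nonneg fun q _ => hw q)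
      obtain ⟨q, hq⟩ := Finset.nonempty_iff_ne_empty.2 hne
      rw [Finset.mem_filter, Finset.mem_powerset] at hF
      have h1 := hF.2 q hq
      clear hq
      induction h1 with
      | base h1 h2 => exact absurd ⟨_, hF.1 h1, h2⟩ h0
      | step _ _ _ ih => exact ih
    obtain ⟨q₀, hq₀, hr⟩ := h0
    obtain ⟨J, hJ, rfl⟩ : ∃ J, q₀ ∉ J ∧ I = insert q₀ J := ⟨_, Finset.notMem_erase q₀ I, (Finset.insert_erase hq₀).symm⟩
    have h1 : ∀ p ∈ insert q₀ J, ∑ q ∈ J with R p q, a q * Real.exp (b q) ≤ b p := fun p hp =>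
      (Finset.sum_le_sum_of_subset_of_nonneg (Finset.filter_subset_filter _ (Finset.subset_insert _ _))
        fun q _ _ => hw q).trans (h p hp)
    have hA := ih J (Finset.ssubset_insert hJ) (fun p hp => h1 p (Finset.mem_insert_of_mem hp)) root
    have hB := ih J (Finset.ssubset_insert hJ) (fun p hp => h1 p (Finset.mem_insert_of_mem hp))
      fun q => root q ∨ R q₀ q
    have h2 := h1 q₀ hq₀
    simp only [Finset.sum_filter] at hA hB h2 ⊢
    rw [Finset.sum_powerset_insert hJ, Finset.sum_insert hJ, if_pos hr]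
    set S := ∑ q ∈ J, if root q then a q * Real.exp (b q) else 0
    replace hB := mul_le_mul_of_nonneg_left (hB.trans (Real.exp_le_exp.2 (show _ ≤ S + b q₀ from
      le_trans (by
        rw [← Finset.sum_add_distrib]
        exact Finset.sum_le_sum fun q _ => by have := hw q; split_ifs <;> simp_all) (add_le_add le_rfl h2)))) (ha q₀)
    rw [Finset.mul_sum] at hB
    refine (add_le_add hA (le_trans (Finset.sum_le_sum fun F hF => ?_) hB)).trans ?_
    · have h3 : q₀ ∉ F := fun h => hJ (Finset.mem_powerset.1 hF h)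
      split_ifs with h4 h5 h5
      · rw [Finset.prod_insert h3]
      · exact absurd (fun q hq => (h4 q (Finset.mem_insert_of_mem hq)).erase.resolve_left fun e => h3 (e ▸ hq)) h5
      · exact mul_nonneg (ha _) (Finset.prod_nonneg fun q _ => ha q)
      · simp
    · rw [Real.exp_add, Real.exp_add]
      nlinarith [Real.add_one_le_exp (a q₀ * Real.exp (b q₀)), Real.exp_pos S]

namespace Geo
variable (G : Geo X)

/-- configurations (soft `inl`, hard `inr`) with union `Z` -/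
def cfg (r : ℕ) (Z : Finset X) : Finset (Finset (Finset X ⊕ Finset X)) :=
  (Z.powerset.disjSum Z.powerset).powerset.filter fun F => F.toRight ∈ G.fams r Z ∧ F.biUnion (Sum.elim id id) = Z

theorem mem_cfg {G : Geo X} {r : ℕ} {Z : Finset X} {F : Finset (Finset X ⊕ Finset X)} :
    F ∈ G.cfg r Z ↔ F.toRight ∈ G.fams r Z ∧ F.biUnion (Sum.elim id id) = Z := by
  rw [cfg, Finset.mem_filter, and_iff_right_iff_imp, Finset.mem_powerset]
  rintro ⟨-, h⟩ i hi
  have := h ▸ Finset.subset_biUnion_of_mem (Sum.elim id id) hi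
  cases i <;> simpa using this

theorem cfg_sub {G : Geo X} {r : ℕ} {Z : Finset X} {F : Finset (Finset X ⊕ Finset X)} (h : F ∈ G.cfg r Z)
    {i : Finset X ⊕ Finset X} (hi : i ∈ F) : Sum.elim id id i ⊆ Z :=
  (mem_cfg.1 h).2 ▸ Finset.subset_biUnion_of_mem (Sum.elim id id) hi

theorem tr_biUnion (𝒮 𝒳 : Finset (Finset X)) : (𝒮.disjSum 𝒳).biUnion (Sum.elim id id) = (𝒮 ∪ 𝒳).biUnion id := by
  ext x
  simp [or_and_right, exists_or]

theorem grp_eq {B : Type} [CommRing B] (r r' : ℕ) (P K : Finset X → B) (Z : Finset X) :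
    G.grp r r' P K Z = if G.Conn r' Z then ∑ F ∈ G.cfg r Z, ∏ i ∈ F, Sum.elim P K i else 0 := by
  rw [grp, ← Finset.sum_product', ← Finset.sum_filter]
  refine if_congr Iff.rfl (Finset.sum_nbij' (fun p => p.1.disjSum p.2) (fun F => (F.toLeft, F.toRight)) (fun p h => ?_)
    (fun F h => ?_) (fun p h => by simp) (fun F h => Finset.toLeft_disjSum_toRight) fun p h => by
      simp [Finset.prod_disjSum]) rfl
  · rw [Finset.mem_filter, Finset.mem_product] at h
    exact mem_cfg.2 ⟨by simpa using h.1.2, by rw [tr_biUnion, h.2]⟩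
  · refine Finset.mem_filter.2 ⟨Finset.mem_product.2 ⟨mem_pp.2 fun Y hY => cfg_sub h (Finset.mem_toLeft.1 hY),
      (mem_cfg.1 h).1⟩, ?_⟩
    rw [← tr_biUnion, Finset.toLeft_disjSum_toRight, (mem_cfg.1 h).2]

/-- the part of `grp` with at least two members -/
def grp2 {B : Type} [CommRing B] (r r' : ℕ) (P K : Finset X → B) (Z : Finset X) : B :=
  if G.Conn r' Z then ∑ F ∈ G.cfg r Z with 2 ≤ F.card, ∏ i ∈ F, Sum.elim P K i else 0

theorem grp_split {B : Type} [CommRing B] (r : ℕ) {r' : ℕ} (P K : Finset X → B) {Z : Finset X} (h : G.Conn r' Z) :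
    G.grp r r' P K Z = P Z + K Z + G.grp2 r r' P K Z := by
  have e : (G.cfg r Z).filter (fun F => ¬ 2 ≤ F.card) = {{.inl Z}, {.inr Z}} := by
    ext F
    rw [Finset.mem_filter, mem_cfg, Finset.mem_insert, Finset.mem_singleton]
    constructor
    · rintro ⟨⟨-, h2⟩, h3⟩
      have h4 : F.card ≠ 0 := fun h4 => by
        rw [Finset.card_eq_zero.1 h4, Finset.biUnion_empty] at h2
        exact h.1.ne_empty h2.symm
      obtain ⟨i, rfl⟩ := Finset.card_eq_one.1 (show F.card = 1 by omega)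
      cases i <;> simpa using h2
    · rintro (rfl | rfl)
      · exact ⟨⟨mem_fams.2 (by simp), by simp⟩, by simp⟩
      · exact ⟨⟨mem_fams.2 (by simp [h.1]), by simp⟩, by simp⟩
  rw [grp_eq, grp2, if_pos h, if_pos h, ← Finset.sum_filter_add_sum_filter_not _ fun F => 2 ≤ F.card, e,
    Finset.sum_pair (by simp), add_comm]
  simp

theorem grp2_zero {B : Type} [CommRing B] (r : ℕ) (K : Finset X → B) (Z : Finset X) :
    G.grp2 r r (fun _ => 0) K Z = 0 := by
  rw [grp2]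
  split_ifs with h
  swap
  · rfl
  refine Finset.sum_eq_zero fun F hF => ?_
  rw [Finset.mem_filter, mem_cfg] at hF
  rcases F.toLeft.eq_empty_or_nonempty with h0 | ⟨Y, hY⟩
  · have h1 := hF.1.2
    rw [← F.toLeft_disjSum_toRight, tr_biUnion, h0, Finset.empty_union] at h1
    have h2 := F.card_toLeft_add_card_toRight
    rw [h0, fams_conn hF.1.1 h1 h, Finset.card_empty, Finset.card_singleton] at h2
    omega
  · exact Finset.prod_eq_zero (Finset.mem_toLeft.1 hY) rfl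

theorem tr_bd {Bd : Finset X → A → ℝ → Prop} {e : A →ₐ[ℝ] ℝ} (hB : BdAx Bd e) {P K : Finset X → A}
    {p k : Finset X → ℝ} (hP : ∀ Y, Bd Y (P Y) (p Y)) (hK : ∀ Y, Bd Y (K Y) (k Y)) {Z : Finset X}
    {i : Finset X ⊕ Finset X} (h : Sum.elim id id i ⊆ Z) : Bd Z (Sum.elim P K i) (Sum.elim p k i) := by
  cases i
  exacts [hB.mono (hP _) h le_rfl, hB.mono (hK _) h le_rfl]

theorem tr_elim {B : Type} [CommRing B] (P K P' K' : Finset X → B) (i : Finset X ⊕ Finset X) :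
    Sum.elim (fun Y => P Y + P' Y) (fun Y => K Y + K' Y) i = Sum.elim P K i + Sum.elim P' K' i := by
  cases i <;> rfl

theorem bd_grp {Bd : Finset X → A → ℝ → Prop} {e : A →ₐ[ℝ] ℝ} (hB : BdAx Bd e) (r r' : ℕ) {P K : Finset X → A}
    {p k : Finset X → ℝ} (hP : ∀ Y, Bd Y (P Y) (p Y)) (hK : ∀ Y, Bd Y (K Y) (k Y)) (Z : Finset X) :
    Bd Z (G.grp r r' P K Z) (G.grp r r' p k Z) := by
  rw [grp_eq, grp_eq]
  split_ifs
  · exact hB.sum _ fun F hF => hB.prod _ fun i hi => tr_bd hB hP hK (cfg_sub hF hi)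
  · exact hB.zero Z

theorem bd_grp2 {Bd : Finset X → A → ℝ → Prop} {e : A →ₐ[ℝ] ℝ} (hB : BdAx Bd e) (r r' : ℕ) {P K P' K' : Finset X → A}
    {p k p' k' : Finset X → ℝ} (hP : ∀ Y, Bd Y (P Y) (p Y)) (hK : ∀ Y, Bd Y (K Y) (k Y))
    (hP' : ∀ Y, Bd Y (P' Y) (p' Y)) (hK' : ∀ Y, Bd Y (K' Y) (k' Y)) (Z : Finset X) :
    Bd Z (G.grp2 r r' (fun Y => P Y + P' Y) (fun Y => K Y + K' Y) Z - G.grp2 r r' P K Z)
      (G.grp2 r r' (fun Y => p Y + p' Y) (fun Y => k Y + k' Y) Z - G.grp2 r r' p k Z) := by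
  simp only [grp2, tr_elim]
  split_ifs
  · rw [← Finset.sum_sub_distrib, ← Finset.sum_sub_distrib]
    exact hB.sum _ fun F hF => hB.prod_sub _ (fun i hi => tr_bd hB hP hK (cfg_sub (Finset.mem_filter.1 hF).1 hi))
      fun i hi => tr_bd hB hP' hK' (cfg_sub (Finset.mem_filter.1 hF).1 hi)
  · simpa using hB.zero Z

variable {G}

theorem tr_rooted {l : ℕ} {y : X} {Z : Finset X} {F : Finset (Finset X ⊕ Finset X)}
    (hU : F.biUnion (Sum.elim id id) = Z) (hc : G.Conn l Z) (hy : ∃ z ∈ Z, G.d y z ≤ l) {i : Finset X ⊕ Finset X}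
    (hi : i ∈ F) (h0 : (Sum.elim id id i : Finset X).Nonempty) :
    Rooted (fun u v => ∃ a ∈ Sum.elim id id u, ∃ b ∈ Sum.elim id id v, G.d a b ≤ l)
      (fun u => ∃ z ∈ Sum.elim id id u, G.d y z ≤ l) F i := by
  obtain ⟨z, hz, hyz⟩ := hy
  obtain ⟨w, hw⟩ := h0
  have h1 := hc.2 z hz w (hU ▸ Finset.mem_biUnion.2 ⟨i, hi, hw⟩)
  induction h1 generalizing i with
  | refl => exact .base hi ⟨z, hw, hyz⟩
  | tail _ h2 ih =>
    obtain ⟨j, hj, h3⟩ := Finset.mem_biUnion.1 (hU ▸ h2.1)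
    exact .step (ih hj h3) hi ⟨_, h3, _, hw, h2.2.2⟩

theorem NB.grp (r : ℕ) {l : ℕ} (hl : 1 ≤ l) {a δ : ℝ} (ha : 1 ≤ a) {p k : Finset X → ℝ} (hp : ∀ Z, 0 ≤ p Z)
    (hk : ∀ Z, 0 ≤ k Z) (h0 : p ∅ = 0) (h : G.NB l (a * 3) (fun Z => p Z + k Z) δ) (hδ : δ ≤ 1 / 49) :
    G.NB l a (G.grp r l p k) (2 * δ) := by
  intro y 𝒮 h𝒮
  have hu : ∀ i, 0 ≤ Sum.elim p k i := fun i => by cases i; exacts [hp _, hk _]
  have hf : ∀ i, 0 ≤ a ^ G.cov l (Sum.elim id id i) * Sum.elim p k i := fun i => mul_nonneg (by positivity) (hu i)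
  set Λ := 𝒮.biUnion id
  have key : ∀ (Q : Finset X → Prop) [DecidablePred Q] (_ : DecidablePred fun i => Q (Sum.elim id id i)),
      ∑ i ∈ Λ.powerset.disjSum Λ.powerset with Q (Sum.elim id id i),
      a ^ G.cov l (Sum.elim id id i) * Sum.elim p k i * Real.exp (G.cov l (Sum.elim id id i)) ≤
        ∑ Y ∈ Λ.powerset with Q Y, (a * 3) ^ G.cov l Y * (p Y + k Y) := fun Q _ _ => by
    rw [Finset.sum_filter, Finset.sum_filter, Finset.sum_disjSum, ← Finset.sum_add_distrib]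
    refine Finset.sum_le_sum fun Y _ => ?_
    have h1 : Real.exp (G.cov l Y) ≤ 3 ^ G.cov l Y := by
      rw [← mul_one (G.cov l Y : ℝ), Real.exp_nat_mul]
      exact pow_le_pow_left₀ (Real.exp_pos _).le (by linarith [Real.exp_one_lt_d9]) _
    have h2 := mul_le_mul_of_nonneg_left h1 (mul_nonneg (pow_nonneg (zero_le_one.trans ha) (G.cov l Y))
      (add_nonneg (hp Y) (hk Y)))
    simp only [Sum.elim_inl, Sum.elim_inr, id]
    split_ifs
    · rw [mul_pow]; linarith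
    · simp
  have hδ0 := h.nonneg y
  have T := tree (fun u v => ∃ a ∈ Sum.elim id id u, ∃ b ∈ Sum.elim id id v, G.d a b ≤ l) _
    (fun i => G.cov l (Sum.elim id id i)) hf (Λ.powerset.disjSum Λ.powerset) (fun i _ => by
      obtain ⟨C, h1, h2⟩ := G.cover_nbhd hl (Sum.elim id id i)
      refine (key (fun Y => ∃ a ∈ Sum.elim id id i, ∃ b ∈ Y, G.d a b ≤ l) _).trans
        ((h.near (by positivity) (fun Z => add_nonneg (hp Z) (hk Z)) C _ fun Z hZ => ?_).trans ?_)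
      · obtain ⟨u, hu, v, hv, h3⟩ := (Finset.mem_filter.1 hZ).2
        obtain ⟨c, hc, h4⟩ := h2 u hu v h3
        exact ⟨c, hc, v, hv, h4⟩
      · have h3 : (C.card : ℝ) ≤ 49 * G.cov l (Sum.elim id id i) := by exact_mod_cast h1
        nlinarith [Nat.cast_nonneg (α := ℝ) C.card]) fun u => ∃ z ∈ Sum.elim id id u, G.d y z ≤ l
  replace T := T.trans (Real.exp_le_exp.2 ((key (fun Y => ∃ z ∈ Y, G.d y z ≤ l) _).trans
    (h y _ fun Z hZ => (Finset.mem_filter.1 hZ).2)))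
  rw [← Finset.add_sum_erase _ _ (a := ∅) (by simp), Finset.prod_empty] at T
  have h1 := (abs_le.1 (Real.abs_exp_sub_one_le (x := δ) (by rw [abs_of_nonneg hδ0]; linarith))).2
  rw [abs_of_nonneg hδ0] at h1
  refine le_trans ?_ ((le_sub_iff_add_le'.2 T).trans h1)
  refine le_trans (Finset.sum_le_sum fun Z hZ => ?_) (Finset.sum_fiberwise_le_sum_of_sum_fiber_nonneg (t := 𝒮)
    (g := fun F => F.biUnion (Sum.elim id id)) fun _ _ => Finset.sum_nonneg fun F _ => Finset.prod_nonneg fun i _ => hf i)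
  rw [grp_eq]
  split_ifs with hc
  swap
  · exact (mul_zero _).trans_le (Finset.sum_nonneg fun F _ => Finset.prod_nonneg fun i _ => hf i)
  rw [← Finset.sum_filter_ne_zero, Finset.mul_sum]
  refine le_trans (Finset.sum_le_sum fun F hF => ?_) (Finset.sum_le_sum_of_subset_of_nonneg (fun F hF => ?_)
    fun F _ _ => Finset.prod_nonneg fun i _ => hf i)
  · rw [Finset.prod_mul_distrib, Finset.prod_pow_eq_pow_sum]
    refine mul_le_mul_of_nonneg_right (pow_le_pow_right₀ ha ?_) (Finset.prod_nonneg fun i _ => hu i)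
    rw [← (mem_cfg.1 (Finset.mem_filter.1 hF).1).2]
    exact G.cov_biUnion_le l _ _
  · obtain ⟨h2, h3⟩ := Finset.mem_filter.1 hF
    have h4 := mem_cfg.1 h2
    refine Finset.mem_filter.2 ⟨Finset.mem_erase.2 ⟨fun e => ?_, Finset.mem_filter.2 ⟨Finset.mem_powerset.2 fun i hi => ?_,
      fun i hi => tr_rooted h4.2 hc (h𝒮 Z hZ) hi ?_⟩⟩, h4.2⟩
    · rw [e, Finset.biUnion_empty] at h4
      exact hc.1.ne_empty h4.2.symm
    · have := (cfg_sub h2 hi).trans (Finset.subset_biUnion_of_mem id hZ)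
      cases i <;> simpa using this
    · cases i with
      | inl Y => exact Finset.nonempty_iff_ne_empty.2 fun e : Y = ∅ => h3 (Finset.prod_eq_zero hi (e ▸ h0))
      | inr Y => exact (mem_fams.1 h4.1).2.1 Y (Finset.mem_toRight.2 hi)

theorem tr_scale {ι : Type} (F : Finset ι) {m k : ι → ℝ} (hm : ∀ i, 0 ≤ m i) (hk : ∀ i, 0 ≤ k i) {t : ℝ} (ht : 1 ≤ t) :
    t * (∏ i ∈ F, (m i + k i) - ∏ i ∈ F, m i) ≤ ∏ i ∈ F, (m i + t * k i) - ∏ i ∈ F, m i := by
  induction F using Finset.induction_on with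
  | empty => simp
  | insert i F hi ih =>
    simp only [Finset.prod_insert hi]
    have h1 : ∏ i ∈ F, (m i + k i) ≤ ∏ i ∈ F, (m i + t * k i) :=
      Finset.prod_le_prod (fun i _ => add_nonneg (hm i) (hk i)) fun i _ => by nlinarith [hk i]
    nlinarith [mul_le_mul_of_nonneg_left ih (hm i),
      mul_le_mul_of_nonneg_left h1 (mul_nonneg (zero_le_one.trans ht) (hk i))]

theorem tr_scale2 {ι : Type} {F : Finset ι} (hF : 2 ≤ F.card) {m k : ι → ℝ} (hm : ∀ i, 0 ≤ m i) (hk : ∀ i, 0 ≤ k i)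
    {σ t : ℝ} (hσ : 1 ≤ σ) (ht : 1 ≤ t) :
    σ ^ 2 * t * (∏ i ∈ F, (m i + k i) - ∏ i ∈ F, m i) ≤ ∏ i ∈ F, (σ * m i + σ * t * k i) := by
  simp only [mul_assoc, ← mul_add, Finset.prod_mul_distrib, Finset.prod_const]
  have h1 := tr_scale F hm hk ht
  have h2 : 0 ≤ ∏ i ∈ F, m i := Finset.prod_nonneg fun i _ => hm i
  have h3 : 0 ≤ ∏ i ∈ F, (m i + t * k i) :=
    Finset.prod_nonneg fun i _ => add_nonneg (hm i) (mul_nonneg (zero_le_one.trans ht) (hk i))
  exact (mul_le_mul_of_nonneg_left (h1.trans (sub_le_self _ h2)) (by positivity)).trans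
    (mul_le_mul_of_nonneg_right (pow_le_pow_right₀ hσ hF) h3)

theorem tr_opt {α ε D : ℝ} (hα : 0 ≤ α) (hε : 0 ≤ ε) (hδ : α + ε ≤ 1 / 98)
    (h : ∀ σ t : ℝ, 1 ≤ σ → 1 ≤ t → σ * ε + σ * t * α ≤ 1 / 49 → σ ^ 2 * t * D ≤ 2 / 49) : D ≤ 392 * α * (α + ε) := by
  rcases hα.eq_or_lt with rfl | hα
  · refine not_lt.1 fun hD => ?_
    rw [mul_zero, zero_mul] at hD
    have := h 1 (1 + D⁻¹) le_rfl (le_add_of_nonneg_right (inv_pos.2 hD).le) (by linarith)
    rw [one_pow, one_mul, add_mul, inv_mul_cancel₀ hD.ne'] at this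
    linarith
  have h0 : 0 < α + ε := by linarith
  have := h (1 / (98 * (α + ε))) ((α + ε) / α) (by rw [le_div_iff₀ (by positivity)]; linarith)
    (by rw [le_div_iff₀ hα]; linarith) (by
      have : 1 / (98 * (α + ε)) * ε ≤ 1 / 98 := by
        rw [div_mul_eq_mul_div, div_le_div_iff₀ (by positivity) (by positivity)]; linarith
      have e : 1 / (98 * (α + ε)) * ((α + ε) / α) * α = 1 / 98 := by field_simp
      linarith)
  have e : (1 / (98 * (α + ε))) ^ 2 * ((α + ε) / α) * D = D / (98 ^ 2 * α * (α + ε)) := by field_simp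
  rw [e, div_le_iff₀ (by positivity)] at this
  linarith

theorem NB.grp2 (r : ℕ) {l : ℕ} (hl : 1 ≤ l) {a ε α : ℝ} (ha : 1 ≤ a) {p k p' k' : Finset X → ℝ} (hp : ∀ Z, 0 ≤ p Z)
    (hk : ∀ Z, 0 ≤ k Z) (hp' : ∀ Z, 0 ≤ p' Z) (hk' : ∀ Z, 0 ≤ k' Z) (h0 : p ∅ = 0) (h0' : p' ∅ = 0)
    (h : G.NB l (a * 3) (fun Z => p Z + k Z) ε) (h' : G.NB l (a * 3) (fun Z => p' Z + k' Z) α) (hδ : α + ε ≤ 1 / 98) :
    G.NB l a (fun Z => G.grp2 r l (fun Y => p Y + p' Y) (fun Y => k Y + k' Y) Z - G.grp2 r l p k Z)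
      (392 * α * (α + ε)) := by
  intro y 𝒮 h𝒮
  refine tr_opt (h'.nonneg y) (h.nonneg y) hδ fun σ t hσ ht hs => ?_
  have hσ0 := zero_le_one.trans hσ
  have hσt := mul_nonneg hσ0 (zero_le_one.trans ht)
  have h1 : ∀ Z, 0 ≤ σ * p Z + σ * t * p' Z := fun Z => add_nonneg (mul_nonneg hσ0 (hp Z)) (mul_nonneg hσt (hp' Z))
  have h2 : ∀ Z, 0 ≤ σ * k Z + σ * t * k' Z := fun Z => add_nonneg (mul_nonneg hσ0 (hk Z)) (mul_nonneg hσt (hk' Z))
  have h3 := NB.grp r hl ha h1 h2 (by simp [h0, h0']) (δ := 1 / 49) (fun y 𝒮 h𝒮 => le_trans (le_of_eq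
    (Finset.sum_congr rfl fun Z _ => by ring)) ((((h.smul hσ0).add (h'.smul hσt)) y 𝒮 h𝒮).trans hs)) le_rfl y 𝒮 h𝒮
  rw [Finset.mul_sum]
  refine (Finset.sum_le_sum fun Z _ => ?_).trans (h3.trans_eq (by norm_num))
  rw [mul_left_comm]
  refine mul_le_mul_of_nonneg_left ?_ (by positivity)
  simp only [Geo.grp2, grp_eq]
  split_ifs
  swap
  · simp
  have e : ∀ i, Sum.elim (fun Z => σ * p Z + σ * t * p' Z) (fun Z => σ * k Z + σ * t * k' Z) i =
      σ * Sum.elim p k i + σ * t * Sum.elim p' k' i := fun i => by cases i <;> rfl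
  simp only [tr_elim p k p' k', e]
  rw [← Finset.sum_sub_distrib, Finset.mul_sum]
  have hu : ∀ i, 0 ≤ Sum.elim p k i := fun i => by cases i; exacts [hp _, hk _]
  have hu' : ∀ i, 0 ≤ Sum.elim p' k' i := fun i => by cases i; exacts [hp' _, hk' _]
  exact (Finset.sum_le_sum fun F hF => tr_scale2 (Finset.mem_filter.1 hF).2 hu hu' hσ ht).trans
    (Finset.sum_le_sum_of_subset_of_nonneg (Finset.filter_subset _ _) fun F _ _ => Finset.prod_nonneg fun i _ =>
      add_nonneg (mul_nonneg hσ0 (hu i)) (mul_nonneg hσt (hu' i)))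

end Geo

/-- the initial grouping: soft activities of bounded diameter, no gain asked -/
theorem grp_bound (a : ℝ) (ha : 1 ≤ a) :
    ∃ C ε : ℝ, 0 < C ∧ 0 < ε ∧ ∀ (X : Type) (G : Geo X) (l : ℕ) (p₀ p : Finset X → ℝ) (ε₀ α : ℝ),
      1 ≤ l → (∀ Z, 0 ≤ p₀ Z ∧ 0 ≤ p Z) → (∀ Z, ¬ (G.Small l Z ∧ G.Conn l Z) → p Z = 0) →
      (∀ Z, ¬ G.Conn l Z → p₀ Z = 0) → α ≤ ε₀ → ε₀ ≤ ε →
      (∀ (y : X) (𝒮 : Finset (Finset X)), (∀ Z ∈ 𝒮, ∃ z ∈ Z, G.d y z ≤ l) →
        ∑ Z ∈ 𝒮, (3 * a) ^ G.cov l Z * p₀ Z ≤ ε₀ ∧ ∑ Z ∈ 𝒮, p Z ≤ α) →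
      ∀ (y : X) (𝒮 : Finset (Finset X)), (∀ Z ∈ 𝒮, ∃ z ∈ Z, G.d y z ≤ l) →
        ∑ Z ∈ 𝒮, a ^ G.cov l Z *
          (G.grp l l (fun Y => p₀ Y + p Y + p₀ Y * p Y) (fun _ => (0 : ℝ)) Z -
            G.grp l l p₀ (fun _ => (0 : ℝ)) Z) ≤ C * α := by
  have hT : 0 < (a * 3) ^ 49 := by positivity
  refine ⟨10 * (a * 3) ^ 49, 1 / (98 * (2 * (a * 3) ^ 49 + 1)), by positivity, by positivity,
    fun X G l p₀ p ε₀ α hl h0 hp hp₀ hα hε h y 𝒮 h𝒮 => ?_⟩
  rw [le_div_iff₀ (by positivity)] at hε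
  have ha3 : 1 ≤ a * 3 := by linarith
  have n₀ : G.NB l (a * 3) (fun Z => p₀ Z + 0) ε₀ := fun y 𝒮 h𝒮 => by simpa [mul_comm a 3] using (h y 𝒮 h𝒮).1
  have hε₀ := n₀.nonneg y
  have hα₀ : 0 ≤ α := by simpa using (h y ∅ (by simp)).2
  have h1 : ∀ Z, 0 ≤ p Z + p₀ Z * p Z := fun Z => add_nonneg (h0 Z).2 (mul_nonneg (h0 Z).1 (h0 Z).2)
  have n₁ : G.NB l (a * 3) (fun Z => p Z + p₀ Z * p Z + 0) (2 * (a * 3) ^ 49 * α) := fun y 𝒮 h𝒮 => by
    refine le_trans ?_ (mul_le_mul_of_nonneg_left (h y 𝒮 h𝒮).2 (by positivity))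
    rw [Finset.mul_sum]
    refine Finset.sum_le_sum fun Z _ => ?_
    by_cases hZ : G.Small l Z ∧ G.Conn l Z
    · have h2 := n₀.le ha3 (fun Z => by simpa using (h0 Z).1) hZ.1.1
      have h3 : p Z + p₀ Z * p Z + 0 ≤ 2 * p Z := by nlinarith [(h0 Z).2, mul_nonneg hε₀ hT.le]
      exact (mul_le_mul (pow_le_pow_right₀ ha3 (G.cov_small_le hl hZ.1)) h3 (by simpa using h1 Z) hT.le).trans_eq
        (by ring)
    · simp [hp Z hZ]
  have hs : 2 * (a * 3) ^ 49 * α + ε₀ ≤ 1 / 98 := by nlinarith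
  have hE : ¬ G.Conn l ∅ := fun h => h.1.ne_empty rfl
  have n₂ := (n₁.mono (by positivity) (by linarith : a ≤ a * 3) (fun _ => le_rfl) (fun Z => by simpa using h1 Z)
    le_rfl).add (Geo.NB.grp2 l hl ha (fun Z => (h0 Z).1) (fun _ => le_rfl) h1 (fun _ => le_rfl) (hp₀ _ hE)
      (by simp [hp ∅ fun h => hE h.2]) n₀ n₁ hs) y 𝒮 h𝒮
  refine le_trans (Finset.sum_le_sum fun Z _ => mul_le_mul_of_nonneg_left ?_ (by positivity)) (n₂.trans ?_)
  · simp only [add_zero, ← add_assoc]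
    by_cases hc : G.Conn l Z
    · rw [G.grp_split l _ _ hc, G.grp_split l _ _ hc]
      linarith
    · simp only [Geo.grp, Geo.grp2, if_neg hc, sub_self, add_zero]
      exact h1 Z
  · nlinarith [mul_nonneg hT.le hα₀]

end Crest.Agent.R165
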