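import Crest.Agent.R165.P.Alg

/-! # R165 block P, Xi: Mayer expansion and grouping (owner helper58; statements frozen, add lemmas freely) -/

set_option autoImplicit false
set_option linter.unusedSectionVars false
set_option linter.unusedVariables false
noncomputable section
open Classical

namespace Crest.Agent.R165

variable {X : Type} {A : Type} [CommRing A] [Algebra ℝ A] [Algebra ℚ A]

theorem Geo.Conn.mono {G : Geo X} {r r' : ℕ} (hr : r ≤ r') {Z : Finset X} (h : G.Conn r Z) : G.Conn r' Z := by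
  exact ⟨h.1, fun x hx y hy => Relation.ReflTransGen.mono (fun a b hab => ⟨hab.1, hab.2.1, hab.2.2.trans hr⟩) _ _
    (h.2 x hx y hy)⟩

theorem Geo.conn_single (G : Geo X) (r : ℕ) (x : X) : G.Conn r {x} := by
  refine ⟨Finset.singleton_nonempty x, fun a ha b hb => ?_⟩
  rw [Finset.mem_singleton.1 ha, Finset.mem_singleton.1 hb]

theorem Geo.Small.conn {G : Geo X} {l r : ℕ} (hr : 2 * l ≤ r) {Z : Finset X} (h : G.Small l Z) : G.Conn r Z := by
  exact ⟨h.1, fun x hx y hy => .single ⟨hx, hy, (h.2 x hx y hy).trans hr⟩⟩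

theorem Geo.small_single (G : Geo X) (l : ℕ) (x : X) : G.Small l {x} := by
  refine ⟨Finset.singleton_nonempty x, fun a ha b hb => ?_⟩
  rw [Finset.mem_singleton.1 ha, Finset.mem_singleton.1 hb, G.d_self]
  exact Nat.zero_le _

theorem Geo.grp_of_not_conn {B : Type} [CommRing B] (G : Geo X) (r : ℕ) {r' : ℕ} (P K : Finset X → B) {Z : Finset X}
    (h : ¬ G.Conn r' Z) : G.grp r r' P K Z = 0 := by
  exact if_neg h

theorem Geo.mem_fams {G : Geo X} {r : ℕ} {Λ : Finset X} {𝒳 : Finset (Finset X)} : 𝒳 ∈ G.fams r Λ ↔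
    (∀ Y ∈ 𝒳, Y ⊆ Λ) ∧ (∀ Y ∈ 𝒳, Y.Nonempty) ∧ ∀ Y ∈ 𝒳, ∀ Z ∈ 𝒳, Y ≠ Z → G.Sep r Y Z := by
  simp only [Geo.fams, Finset.mem_filter, Finset.mem_powerset, Finset.subset_iff (s₁ := 𝒳)]

theorem mem_pp {Λ : Finset X} {𝒮 : Finset (Finset X)} : 𝒮 ∈ Λ.powerset.powerset ↔ ∀ Y ∈ 𝒮, Y ⊆ Λ := by
  simp only [Finset.mem_powerset, Finset.subset_iff (s₁ := 𝒮)]

theorem Geo.grp_mem (G : Geo X) (r r' : ℕ) {P K : Finset X → A} {Z : Finset X} {T : Subalgebra ℝ A}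
    (hP : ∀ Y ⊆ Z, P Y ∈ T) (hK : ∀ Y ⊆ Z, K Y ∈ T) : G.grp r r' P K Z ∈ T := by
  unfold Geo.grp
  split_ifs
  · refine T.sum_mem fun 𝒮 h𝒮 => T.sum_mem fun 𝒳 h𝒳 => ?_
    split_ifs
    · exact T.mul_mem (T.prod_mem fun Y hY => hP Y (mem_pp.1 h𝒮 Y hY))
        (T.prod_mem fun Y hY => hK Y ((Geo.mem_fams.1 h𝒳).1 Y hY))
    · exact T.zero_mem
  · exact T.zero_mem

theorem Geo.grp_of_not_subset {B : Type} [CommRing B] (G : Geo X) (r r' : ℕ) {P K : Finset X → B} {Λ : Finset X}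
    (hP : ∀ Y, ¬ Y ⊆ Λ → P Y = 0) (hK : ∀ Y, ¬ Y ⊆ Λ → K Y = 0) {Z : Finset X} (h : ¬ Z ⊆ Λ) :
    G.grp r r' P K Z = 0 := by
  obtain ⟨z, hz, hz'⟩ := Finset.not_subset.1 h
  unfold Geo.grp
  split_ifs
  · refine Finset.sum_eq_zero fun 𝒮 _ => Finset.sum_eq_zero fun 𝒳 _ => ?_
    split_ifs with hU
    · obtain ⟨Y, hY, hzY⟩ := Finset.mem_biUnion.1 (hU ▸ hz)
      have h1 : ¬ Y ⊆ Λ := fun h1 => hz' (h1 hzY)
      rcases Finset.mem_union.1 hY with hY | hY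
      · rw [Finset.prod_eq_zero hY (hP Y h1), zero_mul]
      · rw [Finset.prod_eq_zero hY (hK Y h1), mul_zero]
    · rfl
  · rfl

theorem Geo.Sep.symm {G : Geo X} {r : ℕ} {U V : Finset X} (h : G.Sep r U V) : G.Sep r V U :=
  fun y hy z hz => G.d_comm z y ▸ h z hz y hy

theorem Geo.Sep.mono {G : Geo X} {r r' : ℕ} {U V U' V' : Finset X} (h : G.Sep r' U V) (hr : r ≤ r') (hU : U' ⊆ U)
    (hV : V' ⊆ V) : G.Sep r U' V' := fun y hy z hz => hr.trans_lt (h y (hU hy) z (hV hz))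

theorem Geo.Sep.not_mem {G : Geo X} {r : ℕ} {U V : Finset X} (h : G.Sep r U V) {x : X} (hU : x ∈ U) (hV : x ∈ V) :
    False := by
  simpa [G.d_self] using h x hU x hV

theorem Geo.Conn.subset {G : Geo X} {r : ℕ} {Y U V : Finset X} (h : G.Conn r Y) (hs : G.Sep r U V) (hY : Y ⊆ U ∪ V)
    {y : X} (hy : y ∈ Y) (hU : y ∈ U) : Y ⊆ U := fun z hz => by
  have := h.2 y hy z hz
  clear hz
  induction this with
  | refl => exact hU
  | tail _ h2 ih => exact (Finset.mem_union.1 (hY h2.2.1)).resolve_right fun h3 => (hs _ ih _ h3).not_ge h2.2.2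

theorem Geo.Conn.split {G : Geo X} {r : ℕ} {Y U V : Finset X} (h : G.Conn r Y) (hs : G.Sep r U V) (hY : Y ⊆ U ∪ V) :
    Y ⊆ U ∨ Y ⊆ V := by
  obtain ⟨y, hy⟩ := h.1
  exact (Finset.mem_union.1 (hY hy)).imp (h.subset hs hY hy) (h.subset hs.symm (by rwa [Finset.union_comm]) hy)

theorem Geo.exists_split (G : Geo X) {r : ℕ} {Λ : Finset X} (h0 : Λ.Nonempty) (h : ¬ G.Conn r Λ) :
    ∃ U V : Finset X, U ⊂ Λ ∧ V ⊂ Λ ∧ U ∪ V = Λ ∧ G.Sep r U V := by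
  simp only [Geo.Conn, h0, true_and, not_forall] at h
  obtain ⟨x, hx, y, hy, h⟩ := h
  refine ⟨Λ.filter _, Λ.filter fun z => ¬ Relation.ReflTransGen (fun a b => a ∈ Λ ∧ b ∈ Λ ∧ G.d a b ≤ r) x z,
    Finset.filter_ssubset.2 ⟨y, hy, h⟩, Finset.filter_ssubset.2 ⟨x, hx, not_not.2 .refl⟩,
    Finset.filter_union_filter_not_eq _ _, fun a ha b hb => not_le.1 fun hd => ?_⟩
  rw [Finset.mem_filter] at ha hb
  exact hb.2 (ha.2.tail ⟨ha.1, hb.1, hd⟩)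

theorem Geo.fams_conn {G : Geo X} {r : ℕ} {Λ Z : Finset X} {𝒳 : Finset (Finset X)} (h : 𝒳 ∈ G.fams r Λ)
    (hZ : 𝒳.biUnion id = Z) (hc : G.Conn r Z) : 𝒳 = {Z} := by
  obtain ⟨-, h2, h3⟩ := Geo.mem_fams.1 h
  have key : ∀ Y ∈ 𝒳, Y = Z := fun Y hY => by
    obtain ⟨y, hy⟩ := h2 Y hY
    have h4 : Y ⊆ Z := hZ ▸ Finset.subset_biUnion_of_mem id hY
    refine h4.antisymm (hc.subset (V := (𝒳.erase Y).biUnion id) (fun a ha b hb => ?_) (fun z hz => ?_) (h4 hy) hy)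
    · obtain ⟨W, hW, hb⟩ := Finset.mem_biUnion.1 hb
      exact h3 Y hY W (Finset.mem_of_mem_erase hW) (Finset.ne_of_mem_erase hW).symm a ha b hb
    · obtain ⟨W, hW, hz⟩ := Finset.mem_biUnion.1 (hZ ▸ hz)
      by_cases e : W = Y
      · exact Finset.mem_union_left _ (e ▸ hz)
      · exact Finset.mem_union_right _ (Finset.mem_biUnion.2 ⟨W, Finset.mem_erase.2 ⟨e, hW⟩, hz⟩)
  obtain ⟨z, hz⟩ := hc.1
  obtain ⟨W, hW, -⟩ := Finset.mem_biUnion.1 (hZ ▸ hz)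
  exact Finset.eq_singleton_iff_unique_mem.2 ⟨key W hW ▸ hW, key⟩

theorem Geo.xi_union {B : Type} [CommRing B] (G : Geo X) {r r' : ℕ} (hr : r ≤ r') {K : Finset X → B}
    (hK : ∀ Z, ¬ G.Conn r' Z → K Z = 0) {U V : Finset X} (hs : G.Sep r' U V) :
    G.Xi r K (U ∪ V) = G.Xi r K U * G.Xi r K V := by
  have hd : ∀ {Y : Finset X}, Y.Nonempty → Y ⊆ U → Y ⊆ V → False := fun ⟨y, hy⟩ h1 h2 => hs.not_mem (h1 hy) (h2 hy)
  rw [Geo.Xi, Geo.Xi, Geo.Xi, Finset.sum_mul_sum, ← Finset.sum_product',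
    ← Finset.sum_filter_of_ne (p := fun 𝒳 => ∀ Y ∈ 𝒳, Y ⊆ U ∨ Y ⊆ V) fun 𝒳 h𝒳 h0 Y hY =>
      Geo.Conn.split (by_contra fun hc => h0 (Finset.prod_eq_zero hY (hK Y hc))) hs ((Geo.mem_fams.1 h𝒳).1 Y hY)]
  refine Finset.sum_nbij' (fun 𝒳 => (𝒳.filter (· ⊆ U), 𝒳.filter (· ⊆ V))) (fun p => p.1 ∪ p.2) (fun 𝒳 h => ?_)
    (fun p h => ?_) (fun 𝒳 h => ?_) (fun p h => ?_) fun 𝒳 h => ?_
  · obtain ⟨-, h2, h3⟩ := Geo.mem_fams.1 (Finset.mem_filter.1 h).1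
    refine Finset.mem_product.2 ⟨?_, ?_⟩ <;>
    exact Geo.mem_fams.2 ⟨fun Y hY => (Finset.mem_filter.1 hY).2, fun Y hY => h2 Y (Finset.mem_filter.1 hY).1,
      fun Y hY Z hZ => h3 Y (Finset.mem_filter.1 hY).1 Z (Finset.mem_filter.1 hZ).1⟩
  · obtain ⟨a1, a2, a3⟩ := Geo.mem_fams.1 (Finset.mem_product.1 h).1
    obtain ⟨b1, b2, b3⟩ := Geo.mem_fams.1 (Finset.mem_product.1 h).2
    have h1 : ∀ Y ∈ p.1 ∪ p.2, Y ⊆ U ∨ Y ⊆ V := fun Y hY => (Finset.mem_union.1 hY).imp (a1 Y) (b1 Y)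
    refine Finset.mem_filter.2 ⟨Geo.mem_fams.2 ⟨fun Y hY => (h1 Y hY).elim (·.trans Finset.subset_union_left)
      (·.trans Finset.subset_union_right), fun Y hY => (Finset.mem_union.1 hY).elim (a2 Y) (b2 Y),
        fun Y hY Z hZ hne => ?_⟩, h1⟩
    rcases Finset.mem_union.1 hY with hY | hY <;> rcases Finset.mem_union.1 hZ with hZ | hZ
    exacts [a3 Y hY Z hZ hne, hs.mono hr (a1 Y hY) (b1 Z hZ), hs.symm.mono hr (b1 Y hY) (a1 Z hZ), b3 Y hY Z hZ hne]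
  · rw [← Finset.filter_or, Finset.filter_true_of_mem (Finset.mem_filter.1 h).2]
  · obtain ⟨a1, a2, -⟩ := Geo.mem_fams.1 (Finset.mem_product.1 h).1
    obtain ⟨b1, b2, -⟩ := Geo.mem_fams.1 (Finset.mem_product.1 h).2
    refine Prod.ext ?_ ?_ <;> simp only [Finset.filter_union]
    · rw [Finset.filter_true_of_mem a1, Finset.filter_false_of_mem fun Y hY h => hd (b2 Y hY) h (b1 Y hY),
        Finset.union_empty]
    · rw [Finset.filter_true_of_mem b1, Finset.filter_false_of_mem fun Y hY h => hd (a2 Y hY) (a1 Y hY) h,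
        Finset.empty_union]
  · rw [← Finset.prod_union (Finset.disjoint_filter.2 fun Y hY =>
      hd ((Geo.mem_fams.1 (Finset.mem_filter.1 h).1).2.1 Y hY)), ← Finset.filter_or,
      Finset.filter_true_of_mem (Finset.mem_filter.1 h).2]

theorem Geo.soft_union {B : Type} [CommRing B] (G : Geo X) {r : ℕ} {P : Finset X → B}
    (hP : ∀ Z, ¬ G.Conn r Z → P Z = 0) {U V : Finset X} (hs : G.Sep r U V) :
    ∏ Y ∈ (U ∪ V).powerset, (1 + P Y) = (∏ Y ∈ U.powerset, (1 + P Y)) * ∏ Y ∈ V.powerset, (1 + P Y) := by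
  rw [← Finset.prod_union_inter, Finset.prod_eq_one (s := U.powerset ∩ V.powerset) fun Y hY => ?_, mul_one]
  · refine (Finset.prod_subset (Finset.union_subset (Finset.powerset_mono.2 Finset.subset_union_left)
      (Finset.powerset_mono.2 Finset.subset_union_right)) fun Y hY hY' => ?_).symm
    rw [hP Y fun hc => hY' (by simpa using hc.split hs (Finset.mem_powerset.1 hY)), add_zero]
  · rw [Finset.mem_inter, Finset.mem_powerset, Finset.mem_powerset] at hY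
    rw [hP Y fun ⟨⟨y, hy⟩, _⟩ => hs.not_mem (hY.1 hy) (hY.2 hy), add_zero]

/-- weight of the configurations with union exactly `Z` -/
def Geo.Tz {B : Type} [CommRing B] (G : Geo X) (r : ℕ) (P K : Finset X → B) (Z : Finset X) : B :=
  ∑ 𝒮 ∈ Z.powerset.powerset, ∑ 𝒳 ∈ G.fams r Z,
    if (𝒮 ∪ 𝒳).biUnion id = Z then (∏ Y ∈ 𝒮, P Y) * ∏ Y ∈ 𝒳, K Y else 0

theorem Geo.sum_Tz {B : Type} [CommRing B] (G : Geo X) (r : ℕ) (P K : Finset X → B) (Λ : Finset X) :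
    (∏ Y ∈ Λ.powerset, (1 + P Y)) * G.Xi r K Λ = ∑ V ∈ Λ.powerset, G.Tz r P K V := by
  have e : ∀ V ∈ Λ.powerset, G.Tz r P K V = ∑ 𝒮 ∈ Λ.powerset.powerset, ∑ 𝒳 ∈ G.fams r Λ,
      if (𝒮 ∪ 𝒳).biUnion id = V then (∏ Y ∈ 𝒮, P Y) * ∏ Y ∈ 𝒳, K Y else 0 := fun V hV => by
    rw [Finset.mem_powerset] at hV
    have h1 : ∀ {𝒮 𝒳 : Finset (Finset X)}, (𝒮 ∪ 𝒳).biUnion id = V → ∀ Y ∈ 𝒮 ∪ 𝒳, Y ⊆ V := fun h Y hY =>
      h ▸ Finset.subset_biUnion_of_mem id hY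
    rw [Geo.Tz, ← Finset.sum_product', ← Finset.sum_product']
    refine Finset.sum_subset (Finset.product_subset_product (Finset.powerset_mono.2 (Finset.powerset_mono.2 hV))
      fun 𝒳 h => Geo.mem_fams.2 ⟨fun Y hY => ((Geo.mem_fams.1 h).1 Y hY).trans hV, (Geo.mem_fams.1 h).2⟩)
        fun p hp hp' => if_neg fun h => hp' (Finset.mem_product.2 ⟨mem_pp.2 fun Y hY => h1 h Y (Finset.mem_union_left _ hY),
          Geo.mem_fams.2 ⟨fun Y hY => h1 h Y (Finset.mem_union_right _ hY), (Geo.mem_fams.1 (Finset.mem_product.1 hp).2).2⟩⟩)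
  rw [Finset.sum_congr rfl e, Finset.prod_one_add, Geo.Xi, Finset.sum_mul_sum, Finset.sum_comm (s := Λ.powerset)]
  refine Finset.sum_congr rfl fun 𝒮 h𝒮 => ?_
  rw [Finset.sum_comm]
  refine Finset.sum_congr rfl fun 𝒳 h𝒳 => ?_
  rw [Finset.sum_ite_eq, if_pos]
  exact Finset.mem_powerset.2 (Finset.biUnion_subset.2 fun Y hY =>
    (Finset.mem_union.1 hY).elim (mem_pp.1 h𝒮 Y) ((Geo.mem_fams.1 h𝒳).1 Y))

theorem Geo.Tz_conn {B : Type} [CommRing B] (G : Geo X) {r : ℕ} (K : Finset X → B) {Z : Finset X} (h : G.Conn r Z) :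
    G.Tz r (fun _ => 0) K Z = K Z := by
  rw [Geo.Tz, Finset.sum_eq_single_of_mem ∅ (by simp) fun 𝒮 _ h𝒮 => Finset.sum_eq_zero fun 𝒳 _ => by
      obtain ⟨Y, hY⟩ := Finset.nonempty_iff_ne_empty.2 h𝒮
      rw [Finset.prod_eq_zero hY rfl, zero_mul, ite_self],
    Finset.sum_eq_single_of_mem {Z} (Geo.mem_fams.2 (by simp [h.1])) fun 𝒳 h𝒳 hne =>
      if_neg fun h' => hne (Geo.fams_conn h𝒳 (by simpa using h') h)]
  simp

theorem Geo.xi_empty {B : Type} [CommRing B] (G : Geo X) (r : ℕ) (K : Finset X → B) : G.Xi r K ∅ = 1 := by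
  rw [Geo.Xi, Finset.sum_eq_single_of_mem ∅ (Geo.mem_fams.2 (by simp)) fun 𝒳 h hne => ?_, Finset.prod_empty]
  obtain ⟨Y, hY⟩ := Finset.nonempty_iff_ne_empty.2 hne
  exact absurd (((Geo.mem_fams.1 h).2.1 Y hY).mono ((Geo.mem_fams.1 h).1 Y hY)) Finset.not_nonempty_empty

/-- **Mayer expansion + grouping** (any commutative ring; also used in function algebras by block A) -/
theorem xi_grp {B : Type} [CommRing B] (G : Geo X) {r r' : ℕ} (hr : r ≤ r') (P K : Finset X → B)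
    (hP : ∀ Z, ¬ G.Conn r' Z → P Z = 0) (hK : ∀ Z, ¬ G.Conn r' Z → K Z = 0) (Λ : Finset X) :
    (∏ Y ∈ Λ.powerset, (1 + P Y)) * G.Xi r K Λ = G.Xi r' (G.grp r r' P K) Λ := by
  have e : ∀ Λ, G.Xi r' (G.grp r r' P K) Λ = ∑ V ∈ Λ.powerset, G.Tz r' (fun _ => 0) (G.grp r r' P K) V := fun Λ => by
    rw [← G.sum_Tz]
    simp
  suffices h : ∀ V, G.Tz r P K V = G.Tz r' (fun _ => 0) (G.grp r r' P K) V by
    rw [e, G.sum_Tz, Finset.sum_congr rfl fun V _ => h V]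
  intro V
  induction V using Finset.strongInduction with
  | H V ih =>
    by_cases hc : G.Conn r' V
    · rw [G.Tz_conn _ hc, Geo.grp, if_pos hc, Geo.Tz]
    have h1 : ∑ U ∈ V.powerset, G.Tz r P K U = ∑ U ∈ V.powerset, G.Tz r' (fun _ => 0) (G.grp r r' P K) U := by
      rw [← e, ← G.sum_Tz]
      rcases V.eq_empty_or_nonempty with rfl | h0
      · simp [G.xi_empty, hP ∅ hc]
      obtain ⟨U, W, hU, hW, rfl, hs⟩ := G.exists_split h0 hc
      have h2 : ∀ U' ⊂ U ∪ W, (∏ Y ∈ U'.powerset, (1 + P Y)) * G.Xi r K U' = G.Xi r' (G.grp r r' P K) U' :=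
        fun U' hU' => by
          rw [e, G.sum_Tz, Finset.sum_congr rfl fun V hV => ih V ((Finset.mem_powerset.1 hV).trans_ssubset hU')]
      rw [G.soft_union hP hs, G.xi_union hr hK hs, G.xi_union le_rfl (fun Z => G.grp_of_not_conn r P K) hs, ← h2 U hU,
        ← h2 W hW]
      ring
    rw [← Finset.add_sum_erase _ _ (Finset.mem_powerset_self V), ← Finset.add_sum_erase _ _ (Finset.mem_powerset_self V),
      Finset.sum_congr rfl fun U hU => ih U (Finset.ssubset_iff_subset_ne.2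
        ⟨Finset.mem_powerset.1 (Finset.mem_of_mem_erase hU), Finset.ne_of_mem_erase hU⟩)] at h1
    exact add_right_cancel h1

/-- `mu` factorises over separated families (induction on the family with `fac`). -/
theorem mu_xi (G : Geo X) {Lc : Finset X → Subalgebra ℝ A} {S : Sp X A} (hS : S.Alg G Lc) {K : Finset X → A}
    (hK : ∀ Z, K Z ∈ Lc Z) (Λ : Finset X) : S.mu (G.Xi S.l' K Λ) = G.Xi S.l' (fun Z => S.mu (K Z)) Λ := by
  rw [Geo.Xi, Geo.Xi, map_sum]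
  refine Finset.sum_congr rfl fun 𝒳 h => ?_
  have h3 := (Geo.mem_fams.1 h).2.2
  clear h
  induction 𝒳 using Finset.induction_on with
  | empty => simpa using hS.mu_one
  | insert Y 𝒳 hY ih =>
    rw [Finset.prod_insert hY, Finset.prod_insert hY, hS.fac (Z := 𝒳.biUnion id) (fun a ha b hb => ?_) (hK Y)
      (Subalgebra.prod_mem _ fun Z hZ => hS.mono (Finset.subset_biUnion_of_mem id hZ) (hK Z)),
      ih fun U hU V hV => h3 U (Finset.mem_insert_of_mem hU) V (Finset.mem_insert_of_mem hV)]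
    obtain ⟨W, hW, hb⟩ := Finset.mem_biUnion.1 hb
    exact h3 Y (Finset.mem_insert_self _ _) W (Finset.mem_insert_of_mem hW) (fun e => hY (e ▸ hW)) a ha b hb


end Crest.Agent.R165
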